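import Vale.Agent.P298.H755.Sec
import Vale.Agent.P298.H98.OTC2

/-!
P298, block OT-B (helper755): the root sheets in the notation of `H98` (`Gf`, `px`, `rts`, `Vr`,
`LocRt`); growth of the roots and of `1/∂₃G`; holomorphic functions on the sheets.
-/

set_option linter.all false

open Filter Topology Metric MeasureTheory Set Vale.Agent.P298 Vale.Agent.P298.H379
open Vale.Agent.P300.L2
open scoped ENNReal NNReal ComplexConjugate Polynomial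

namespace Vale.Agent.P298.H755

variable {d e : ℕ} {r : ℝ}

namespace Fam

variable (F : Fam d r)

/-- the family attached to the data of `H98` -/
noncomputable def mk' (c : Fin 3 → ℂ) (b : ℂ → Q d (d - 1)) (hd : 0 < d) (hr : 0 < r)
    (hc : ∀ i, c i ≠ 0) (hb : DifferentiableOn ℂ b (ball 0 r))
    (hB : ∃ B : ℝ, ∀ τ ∈ ball (0 : ℂ) r, ∀ α, ‖b τ α‖ ≤ B)
    (hred : ∃ p : ℂ × ℂ, ∀ z, H98.Gf c b 0 (pt p z) = 0 → pd 2 (H98.Gf c b 0) (pt p z) ≠ 0) :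
    Fam d r where
  c := c
  b := b
  hd := hd
  hr := hr
  hc := hc
  holo := hb
  bdd := by
    obtain ⟨B, hB⟩ := hB
    refine ⟨max B 0, fun τ hτ => ?_⟩
    rw [pi_norm_le_iff_of_nonneg (le_max_right _ _)]
    exact fun α => (hB τ hτ α).trans (le_max_left _ _)
  red := hred

theorem G_eq (τ : ℂ) : F.G τ = H98.Gf F.c F.b τ := rfl

theorem poly_eq (y : Fin 3 → ℂ) : F.poly y = H98.px F.c F.b y := by
  unfold poly H98.px
  rw [← add_assoc]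
  congr 1
  refine Finset.sum_congr rfl fun α _ => ?_
  rw [mul_assoc (F.b (y 2) α)]

theorem rts_eq (y : Fin 3 → ℂ) : F.rts y = H98.rts F.c F.b y := by
  unfold rts H98.rts
  rw [poly_eq]

theorem V_eq_Vr : F.V = H98.Vr F.c F.b r := by
  ext y
  have h1 : F.D y = H98.dsc F.c F.b y := by
    unfold D H98.dsc
    rw [poly_eq]
  rw [H98.mem_Vr_iff (F.hc 2) F.hd, ← h1]
  show y 2 ∈ ball (0 : ℂ) r ∧ F.D y ≠ 0 ↔ ‖y 2‖ < r ∧ F.D y ≠ 0
  rw [mem_ball_zero_iff]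

theorem mem_rts'' {y : Fin 3 → ℂ} {w : ℂ} :
    w ∈ F.rts y ↔ H98.Gf F.c F.b (y 2) ![y 0, y 1, w] = 0 := F.mem_rts'

/-! ### The label of a root -/

open Classical in
/-- the label of the root `w` over `y` -/
noncomputable def lbl (y : Fin 3 → ℂ) (w : ℂ) : ℕ :=
  if h : y ∈ F.V ∧ w ∈ F.rts y then F.ecov.lab ⟨(y, w), h⟩ else 0

theorem lbl_lt {y : Fin 3 → ℂ} {w : ℂ} (hy : y ∈ F.V) (hw : w ∈ F.rts y) : F.lbl y w < d := by
  rw [lbl, dif_pos ⟨hy, hw⟩]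
  exact F.ecov.lab_lt _

theorem lbl_mem {y : Fin 3 → ℂ} {w : ℂ} (hy : y ∈ F.V) (hw : w ∈ F.rts y) :
    (y, F.lbl y w) ∈ F.S.M := F.mem_M.2 ⟨hy, F.lbl_lt hy hw⟩

theorem pt_lbl {y : Fin 3 → ℂ} {w : ℂ} (hy : y ∈ F.V) (hw : w ∈ F.rts y) :
    F.ecov.pt (y, F.lbl y w) = ⟨(y, w), hy, hw⟩ := by
  have h1 := F.ecov.pt_q ⟨(y, w), hy, hw⟩
  rw [lbl, dif_pos ⟨hy, hw⟩]
  exact h1

theorem rt_lbl {y : Fin 3 → ℂ} {w : ℂ} (hy : y ∈ F.V) (hw : w ∈ F.rts y) :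
    F.rt (y, F.lbl y w) = w := by
  rw [rt, F.pt_lbl hy hw]

theorem lbl_rt {y : Fin 3 → ℂ} {i : ℕ} (hy : y ∈ F.V) (hi : i < d) :
    F.lbl y (F.rt (y, i)) = i := by
  have hm : (y, i) ∈ F.S.M := F.mem_M.2 ⟨hy, hi⟩
  have h1 := F.rt_mem hm
  exact F.rt_injOn hy (Finset.mem_range.2 (F.lbl_lt hy h1)) (Finset.mem_range.2 hi)
    (F.rt_lbl hy h1)

/-- a continuous local root gives a section of the sheets -/
theorem isSection_lbl {W : Set (Fin 3 → ℂ)} {s : (Fin 3 → ℂ) → ℂ} (hW : IsOpen W) (hWV : W ⊆ F.V)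
    (hs : ContinuousOn s W) (hm : ∀ y ∈ W, s y ∈ F.rts y) :
    F.S.IsSection W (fun y => F.lbl y (s y)) := by
  refine ⟨fun y hy => F.lbl_lt (hWV hy) (hm y hy), hWV, hW, ?_, ?_⟩
  · rw [continuousOn_iff_continuous_domRestrict]
    have h2 : ContinuousOn (fun y => (y, s y)) W := continuousOn_id.prodMk hs
    rw [continuousOn_iff_continuous_domRestrict] at h2
    refine (h2.subtype_mk (fun y => ⟨hWV y.2, hm y.1 y.2⟩)).congr fun y => ?_
    show _ = F.ecov.pt (y.1, F.lbl y.1 (s y.1))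
    rw [F.pt_lbl (hWV y.2) (hm y.1 y.2)]
    rfl
  · intro y hy
    rw [F.pt_lbl (hWV hy) (hm y hy)]
    rfl

/-- **A holomorphic function on the sheets** is holomorphic along the roots. -/
theorem locRt_of_holo {X : (Fin 3 → ℂ) × ℕ → ℂ} (hX : F.S.Holo X) :
    H98.LocRt F.c F.b r (fun y w => X (y, F.lbl y w)) := by
  intro y₀ hy₀
  rw [← V_eq_Vr] at hy₀
  obtain ⟨W, s, hW, hyW, hWV, hd, hinj, hfib⟩ := F.exists_roots hy₀
  have hm : ∀ i, ∀ y ∈ W, s i y ∈ F.rts y := fun i y hy => by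
    rw [hfib y hy]
    exact Finset.mem_image_of_mem _ (Finset.mem_univ i)
  refine ⟨W, hW, hyW, s, hd, hinj, fun y hy i => F.mem_rts''.1 (hm i y hy), fun i => ?_⟩
  exact hX W _ (F.isSection_lbl hW hWV (hd i).continuousOn (hm i))

/-! ### Growth -/

/-- polynomial growth on the sheets -/
abbrev PGS (X : (Fin 3 → ℂ) × ℕ → ℂ) : Prop := PG F.S.M (fun q => F.p q.1) X

theorem p_nonneg {y : Fin 3 → ℂ} (hy : y ∈ F.V) : 0 ≤ F.p y := pe_nonneg hy.1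

theorem p_nonneg' : ∀ q ∈ F.S.M, 0 ≤ F.p q.1 := fun q hq => F.p_nonneg (F.mem_M.1 hq).1

theorem PG_fst {f : (Fin 3 → ℂ) → ℂ} (hf : PG (cyl 2 r) (p0 2 r) f) : F.PGS (fun q => f q.1) := by
  obtain ⟨C, k, hC, h⟩ := hf
  refine ⟨C, k, hC, fun q hq => (h q.1 (F.mem_M.1 hq).1.1).trans ?_⟩
  have h1 := p0_nonneg (j₀ := (2 : Fin 3)) (F.mem_M.1 hq).1.1
  have h2 : p0 2 r q.1 ≤ F.p q.1 := p0_le_pe
  exact mul_le_mul_of_nonneg_left (pow_le_pow_left₀ (by linarith) (by linarith) k) hC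

theorem PG_coord (i : Fin 3) : F.PGS (fun q => q.1 i) :=
  F.PG_fst (HG.coord (j₀ := (2 : Fin 3)) (r := r) i).gr

theorem PG_D_inv : F.PGS (fun q => (F.D q.1)⁻¹) := ⟨1, 1, zero_le_one, fun q hq => by
  rw [one_mul, pow_one]
  exact norm_g_le_pe (g := fun z => (F.D z)⁻¹) (F.mem_M.1 hq).1.1⟩

/-- the roots are at most of linear growth -/
theorem exists_root_le : ∃ K : ℝ, 1 ≤ K ∧ ∀ y ∈ cyl 2 r, ∀ w ∈ F.rts y,
    ‖w‖ ≤ K * (1 + ‖(![y 0, y 1] : Fin 2 → ℂ)‖) := by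
  obtain ⟨B, hB⟩ := F.bdd
  have hB1 : ∀ τ ∈ ball (0 : ℂ) r, ∀ α, ‖F.b τ α‖ ≤ max B 0 := fun τ hτ α =>
    (norm_le_pi_norm (F.b τ) α).trans ((hB τ hτ).trans (le_max_left _ _))
  obtain ⟨B', hB0', hB'⟩ := H98.coeff_bound (c := F.c) (b := F.b) (le_max_right B 0) hB1
  obtain ⟨K, hK, h⟩ := H98.root_bound (F.hc 2) F.hd hB0' hB'
  refine ⟨K, hK, fun y hy w hw => ?_⟩
  have h1 : y ∈ H98.Ud r := by
    have : y 2 ∈ ball (0 : ℂ) r := hy
    exact mem_ball_zero_iff.1 this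
  refine h y h1 w ?_
  rw [← poly_eq]
  exact F.mem_rts.1 hw

theorem PG_rt : F.PGS F.rt := by
  obtain ⟨K, hK, h⟩ := F.exists_root_le
  refine ⟨2 * K, 1, by linarith, fun q hq => ?_⟩
  have h1 := h q.1 (F.mem_M.1 hq).1.1 _ (F.rt_mem hq)
  have h2 : ‖(![q.1 0, q.1 1] : Fin 2 → ℂ)‖ ≤ ‖q.1‖ := by
    rw [pi_norm_le_iff_of_nonneg (norm_nonneg _)]
    intro i
    fin_cases i
    · exact norm_le_pi_norm q.1 0
    · exact norm_le_pi_norm q.1 1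
  have h3 : ‖q.1‖ ≤ 1 + F.p q.1 := norm_le_pe (F.mem_M.1 hq).1.1
  have h4 := F.p_nonneg' q hq
  rw [pow_one]
  refine h1.trans ?_
  nlinarith

/-- the value of `∂₃G` at the root -/
noncomputable def dG (q : (Fin 3 → ℂ) × ℕ) : ℂ :=
  pd 2 (F.G (q.1 2)) (pt (q.1 0, q.1 1) (F.rt q))

theorem dG_eq (q : (Fin 3 → ℂ) × ℕ) :
    F.dG q = (Polynomial.derivative (F.poly q.1)).eval (F.rt q) := by
  rw [dG, eval_derivative]

theorem dG_ne_zero {q : (Fin 3 → ℂ) × ℕ} (hq : q ∈ F.S.M) : F.dG q ≠ 0 := by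
  rw [dG_eq]
  exact F.D_ne_zero_iff.1 (F.mem_M.1 hq).1.2 _ (F.mem_rts.1 (F.rt_mem hq))

theorem PG_dG : F.PGS F.dG := by
  have hp := F.p_nonneg'
  have h1 : F.PGS (fun q => ∑ m ∈ Finset.range d,
      (Polynomial.derivative (F.poly q.1)).coeff m * F.rt q ^ m) :=
    PG.sum hp _ fun m _ => (F.PG_fst (F.HG_coeff' m).gr).mul hp (F.PG_rt.pow hp m)
  refine h1.congr fun q hq => ?_
  rw [dG_eq]
  refine Polynomial.eval_eq_sum_range' ?_ _
  have := F.natDegree_derivative_le q.1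
  have := F.hd
  omega

theorem PG_dG_inv : F.PGS (fun q => (F.dG q)⁻¹) := by
  obtain ⟨C, k, hC, h⟩ := F.PG_dG
  refine ⟨‖F.c 2‖ ^ (d - 1) * C ^ (d - 1), k * (d - 1) + 1, by positivity, fun q hq => ?_⟩
  obtain ⟨hy, hi⟩ := F.mem_M.1 hq
  have hp := F.p_nonneg' q hq
  have hw := F.rt_mem hq
  have hD := F.D_eq_prod hy.2
  have hM : ∀ w ∈ (F.rts q.1).erase (F.rt q),
      ‖(Polynomial.derivative (F.poly q.1)).eval w‖ ≤ C * (1 + F.p q.1) ^ k := by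
    intro w hw
    obtain ⟨j, hj, hjw⟩ := F.exists_rt hy (Finset.mem_of_mem_erase hw)
    have h1 := h (q.1, j) (F.mem_M.2 ⟨hy, hj⟩)
    rw [dG_eq] at h1
    simp only at h1
    rw [hjw] at h1
    exact h1
  have h2 : ‖F.D q.1‖ ≤ ‖F.c 2‖ ^ (d - 1) * ((C * (1 + F.p q.1) ^ k) ^ (d - 1) * ‖F.dG q‖) := by
    rw [hD, norm_mul, norm_pow, ← Finset.prod_erase_mul _ _ hw, norm_mul, ← dG_eq]
    refine mul_le_mul_of_nonneg_left (mul_le_mul_of_nonneg_right ?_ (norm_nonneg _))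
      (by positivity)
    rw [norm_prod]
    refine (Finset.prod_le_prod (fun _ _ => norm_nonneg _) hM).trans ?_
    rw [Finset.prod_const, Finset.card_erase_of_mem hw, F.card_rts hy.2]
  have hD0 : 0 < ‖F.D q.1‖ := norm_pos_iff.2 hy.2
  have hdG0 : 0 < ‖F.dG q‖ := norm_pos_iff.2 (F.dG_ne_zero hq)
  have h3 : ‖(F.D q.1)⁻¹‖ ≤ 1 + F.p q.1 := norm_g_le_pe (g := fun z => (F.D z)⁻¹) hy.1
  rw [norm_inv] at h3 ⊢
  have h4 : ‖F.dG q‖⁻¹ ≤ ‖F.c 2‖ ^ (d - 1) * (C * (1 + F.p q.1) ^ k) ^ (d - 1) *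
      ‖F.D q.1‖⁻¹ := by
    rw [inv_le_iff_one_le_mul₀ hdG0]
    have h5 : 1 = ‖F.D q.1‖⁻¹ * ‖F.D q.1‖ := (inv_mul_cancel₀ hD0.ne').symm
    have h6 := mul_le_mul_of_nonneg_left h2 (inv_nonneg.2 hD0.le)
    rw [← h5] at h6
    refine h6.trans (le_of_eq ?_)
    ring
  refine h4.trans ?_
  calc _ ≤ ‖F.c 2‖ ^ (d - 1) * (C * (1 + F.p q.1) ^ k) ^ (d - 1) * (1 + F.p q.1) :=
        mul_le_mul_of_nonneg_left h3 (by positivity)
    _ = _ := by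
        rw [mul_pow, ← pow_mul, pow_succ]
        ring

/-- the value of a polynomial at the root -/
noncomputable def evr (h : ℂ → Q d e) (q : (Fin 3 → ℂ) × ℕ) : ℂ :=
  ev (h (q.1 2)) (pt (q.1 0, q.1 1) (F.rt q))

theorem evr_eq (h : ℂ → Q d e) (q : (Fin 3 → ℂ) × ℕ) : F.evr h q =
    ∑ α, h (q.1 2) α * (q.1 0 ^ (α.1 0 : ℕ) * q.1 1 ^ (α.1 1 : ℕ) * F.rt q ^ (α.1 2 : ℕ)) := by
  simp only [evr, ev, pt, Fin.prod_univ_three, Matrix.cons_val_zero, Matrix.cons_val_one,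
    Matrix.cons_val]

theorem holo_evr {h : ℂ → Q d e} (hh : DifferentiableOn ℂ h (ball 0 r)) : F.S.Holo (F.evr h) := by
  have h1 : ∀ α, DifferentiableOn ℂ (fun y : Fin 3 → ℂ => h (y 2) α) F.V := by
    intro α y hy
    have h2 : DifferentiableAt ℂ (fun τ => h τ α) (y 2) := by
      have h3 := (hh _ hy.1).differentiableAt (isOpen_ball.mem_nhds hy.1)
      rw [differentiableAt_pi] at h3
      exact h3 α
    exact (h2.comp y (diff_coord 2 y)).differentiableWithinAt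
  have h2 : ∀ (i : Fin 3) (m : ℕ), F.S.Holo (fun q => q.1 i ^ m) := fun i m =>
    Sheets.Holo.fst (S := F.S) (f := fun y => y i ^ m) ((diff_coord i).pow m).differentiableOn
  have h3 : ∀ m : ℕ, F.S.Holo (fun q => F.rt q ^ m) := fun m W s hs => (F.holo_rt W s hs).pow m
  intro W s hs
  have h4 : (fun z => F.evr h (z, s z)) = fun z => ∑ α, h (z 2) α *
      (z 0 ^ (α.1 0 : ℕ) * z 1 ^ (α.1 1 : ℕ) * F.rt (z, s z) ^ (α.1 2 : ℕ)) := by
    funext z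
    exact F.evr_eq h (z, s z)
  rw [h4]
  refine DifferentiableOn.fun_sum fun α _ => ?_
  exact ((h1 α).mono hs.subset).mul (((h2 0 _ W s hs).mul (h2 1 _ W s hs)).mul (h3 _ W s hs))

theorem PG_evr {h : ℂ → Q d e} {B : ℝ} (hB : ∀ τ ∈ ball (0 : ℂ) r, ∀ α, ‖h τ α‖ ≤ B) :
    F.PGS (F.evr h) := by
  have hp := F.p_nonneg'
  have h1 : ∀ α, F.PGS (fun q => h (q.1 2) α) := fun α => ⟨|B|, 0, abs_nonneg _, fun q hq => by
    rw [pow_zero, mul_one]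
    exact (hB _ (F.mem_M.1 hq).1.1 α).trans (le_abs_self B)⟩
  refine PG.congr (PG.sum hp Finset.univ fun α _ => (h1 α).mul hp
    ((((F.PG_coord 0).pow hp (α.1 0 : ℕ)).mul hp ((F.PG_coord 1).pow hp (α.1 1 : ℕ))).mul hp
      (F.PG_rt.pow hp (α.1 2 : ℕ)))) fun q _ => F.evr_eq h q

theorem holo_dG : F.S.Holo F.dG := by
  have hc : ∀ m, DifferentiableOn ℂ (fun y => (Polynomial.derivative (F.poly y)).coeff m) F.V :=
    fun m => (F.HG_coeff' m).diff.mono fun y hy => hy.1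
  intro W s hs
  have h4 : (fun z => F.dG (z, s z)) = fun z => ∑ m ∈ Finset.range d,
      (Polynomial.derivative (F.poly z)).coeff m * F.rt (z, s z) ^ m := by
    funext z
    rw [dG_eq]
    refine Polynomial.eval_eq_sum_range' ?_ _
    have := F.natDegree_derivative_le z
    have := F.hd
    simp only
    omega
  rw [h4]
  refine DifferentiableOn.fun_sum fun m _ => ?_
  exact ((hc m).mono hs.subset).mul ((F.holo_rt W s hs).pow m)

theorem holo_dG_inv : F.S.Holo (fun q => (F.dG q)⁻¹) :=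
  F.holo_dG.inv fun q hq => F.dG_ne_zero hq

/-- `h/∂₃G` at the roots -/
theorem holo_quot {h : ℂ → Q d e} (hh : DifferentiableOn ℂ h (ball 0 r)) :
    F.S.Holo (fun q => F.evr h q * (F.dG q)⁻¹) := (F.holo_evr hh).mul F.holo_dG_inv

theorem PG_quot {h : ℂ → Q d e} {B : ℝ} (hB : ∀ τ ∈ ball (0 : ℂ) r, ∀ α, ‖h τ α‖ ≤ B) :
    F.PGS (fun q => F.evr h q * (F.dG q)⁻¹) := (F.PG_evr hB).mul F.p_nonneg' F.PG_dG_inv

end Fam

end Vale.Agent.P298.H755
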