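import Vale.Agent.P298.H379.Geo
import Mathlib.RingTheory.Polynomial.Resultant.Basic

/-!
P298, block OT-B (helper755), part 1: the family of polynomials
`G_τ(x) = c₀ x₀^d + c₁ x₁^d + c₂ x₂^d + (terms of degree < d)`, `|τ| < r`, seen as a polynomial in
the last variable `X` with coefficients holomorphic in `z = (x₀, x₁, τ)`; its discriminant.
-/

open Filter Topology Metric MeasureTheory Set Vale.Agent.P298 Vale.Agent.P298.H379
open scoped ENNReal NNReal ComplexConjugate Polynomial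

namespace Vale.Agent.P298.H755

/-- A family of polynomials `G_τ`, `|τ| < r`, of degree `d` with diagonal top form; the lower
coefficients are bounded holomorphic functions of `τ` and the discriminant of `G_0` with respect
to the last variable does not vanish identically. -/
structure Fam (d : ℕ) (r : ℝ) where
  /-- coefficients of the top form -/
  c : Fin 3 → ℂ
  /-- the lower terms -/
  b : ℂ → Q d (d - 1)
  hd : 0 < d
  hr : 0 < r
  hc : ∀ i, c i ≠ 0
  holo : DifferentiableOn ℂ b (ball 0 r)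
  bdd : ∃ B : ℝ, ∀ τ ∈ ball (0 : ℂ) r, ‖b τ‖ ≤ B
  red : ∃ p : ℂ × ℂ, ∀ w : ℂ, ∑ i, c i * pt p w i ^ d + ev (b 0) (pt p w) = 0 →
    pd 2 (fun x : Fin 3 → ℂ => ∑ i, c i * x i ^ d + ev (b 0) x) (pt p w) ≠ 0

variable {d : ℕ} {r : ℝ}

namespace Fam

variable (F : Fam d r)

/-- the polynomial `G_τ` -/
noncomputable def G (τ : ℂ) (x : Fin 3 → ℂ) : ℂ := ∑ i, F.c i * x i ^ d + ev (F.b τ) x

/-- the polynomial `G_τ(x₀, x₁, X)` of the variable `X`, `z = (x₀, x₁, τ)` -/
noncomputable def poly (z : Fin 3 → ℂ) : ℂ[X] :=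
  Polynomial.C (F.c 2) * Polynomial.X ^ d + (Polynomial.C (F.c 0 * z 0 ^ d + F.c 1 * z 1 ^ d) +
    ∑ α : Mon d (d - 1), Polynomial.C (F.b (z 2) α * (z 0 ^ (α.1 0 : ℕ) * z 1 ^ (α.1 1 : ℕ))) *
      Polynomial.X ^ (α.1 2 : ℕ))

/-- the discriminant (up to a constant factor) -/
noncomputable def D (z : Fin 3 → ℂ) : ℂ :=
  Polynomial.resultant (F.poly z) (Polynomial.derivative (F.poly z)) d (d - 1)

/-- the domain: the complement of the discriminant -/
def V : Set (Fin 3 → ℂ) := {z | z 2 ∈ ball (0 : ℂ) r ∧ F.D z ≠ 0}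

theorem eval_poly (z : Fin 3 → ℂ) (w : ℂ) :
    (F.poly z).eval w = F.G (z 2) (pt (z 0, z 1) w) := by
  simp only [poly, G, ev, pt, Polynomial.eval_add, Polynomial.eval_mul, Polynomial.eval_C,
    Polynomial.eval_pow, Polynomial.eval_X, Polynomial.eval_finsetSum, Fin.sum_univ_three,
    Fin.prod_univ_three, Matrix.cons_val_zero, Matrix.cons_val_one, Matrix.cons_val]
  have h : ∀ x y : ℂ, ∀ s t : ℂ, s = t → x + (y + s) = y + x + t := by
    intro x y s t h
    rw [h]
    ring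
  refine h _ _ _ _ (Finset.sum_congr rfl fun α _ => ?_)
  ring

theorem hasDerivAt_pt (p : ℂ × ℂ) (w : ℂ) : HasDerivAt (fun w => pt p w) (Pi.single 2 1) w := by
  rw [hasDerivAt_pi]
  intro i
  fin_cases i
  · simpa [pt] using hasDerivAt_const w p.1
  · simpa [pt] using hasDerivAt_const w p.2
  · simpa [pt] using hasDerivAt_id' w

theorem differentiable_ev {e : ℕ} (h : Q d e) : Differentiable ℂ (ev h) := by
  unfold ev
  fun_prop

theorem differentiable_G (τ : ℂ) : Differentiable ℂ (F.G τ) := by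
  unfold G
  have := differentiable_ev (F.b τ)
  fun_prop

theorem hasDerivAt_G (τ : ℂ) (p : ℂ × ℂ) (w : ℂ) :
    HasDerivAt (fun w => F.G τ (pt p w)) (pd 2 (F.G τ) (pt p w)) w := by
  have h1 := ((F.differentiable_G τ) (pt p w)).hasFDerivAt
  exact h1.comp_hasDerivAt w (hasDerivAt_pt p w)

theorem eval_derivative (z : Fin 3 → ℂ) (w : ℂ) :
    (Polynomial.derivative (F.poly z)).eval w = pd 2 (F.G (z 2)) (pt (z 0, z 1) w) := by
  have h1 := (F.poly z).hasDerivAt w
  have h2 := F.hasDerivAt_G (z 2) (z 0, z 1) w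
  have h3 : (fun w => (F.poly z).eval w) = fun w => F.G (z 2) (pt (z 0, z 1) w) := by
    funext w
    exact F.eval_poly z w
  rw [h3] at h1
  exact h1.unique h2

theorem coeff_rest (z : Fin 3 → ℂ) {m : ℕ} (hm : d ≤ m) :
    (Polynomial.C (F.c 0 * z 0 ^ d + F.c 1 * z 1 ^ d) +
    ∑ α : Mon d (d - 1), Polynomial.C (F.b (z 2) α * (z 0 ^ (α.1 0 : ℕ) * z 1 ^ (α.1 1 : ℕ))) *
      Polynomial.X ^ (α.1 2 : ℕ)).coeff m = 0 := by
  have hd := F.hd
  rw [Polynomial.coeff_add, Polynomial.coeff_C_of_ne_zero (by omega), zero_add,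
    Polynomial.finsetSum_coeff]
  refine Finset.sum_eq_zero fun α _ => ?_
  rw [Polynomial.coeff_C_mul_X_pow, if_neg]
  have := α.2.2
  omega

theorem coeff_d (z : Fin 3 → ℂ) : (F.poly z).coeff d = F.c 2 := by
  unfold poly
  rw [Polynomial.coeff_add, F.coeff_rest z le_rfl, Polynomial.coeff_C_mul_X_pow, if_pos rfl,
    add_zero]

theorem coeff_gt (z : Fin 3 → ℂ) {m : ℕ} (hm : d < m) : (F.poly z).coeff m = 0 := by
  unfold poly
  rw [Polynomial.coeff_add, F.coeff_rest z hm.le, Polynomial.coeff_C_mul_X_pow,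
    if_neg (by omega), add_zero]

@[simp] theorem natDegree_poly (z : Fin 3 → ℂ) : (F.poly z).natDegree = d := by
  apply le_antisymm
  · rw [Polynomial.natDegree_le_iff_coeff_eq_zero]
    intro m hm
    exact F.coeff_gt z hm
  · apply Polynomial.le_natDegree_of_ne_zero
    rw [coeff_d]
    exact F.hc 2

@[simp] theorem leadingCoeff_poly (z : Fin 3 → ℂ) : (F.poly z).leadingCoeff = F.c 2 := by
  rw [Polynomial.leadingCoeff, natDegree_poly, coeff_d]

theorem poly_ne_zero (z : Fin 3 → ℂ) : F.poly z ≠ 0 := by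
  intro h
  have := F.leadingCoeff_poly z
  rw [h, Polynomial.leadingCoeff_zero] at this
  exact F.hc 2 this.symm

theorem natDegree_derivative_le (z : Fin 3 → ℂ) :
    (Polynomial.derivative (F.poly z)).natDegree ≤ d - 1 := by
  have := Polynomial.natDegree_derivative_le (F.poly z)
  rwa [natDegree_poly] at this

theorem card_roots (z : Fin 3 → ℂ) : Multiset.card (F.poly z).roots = d := by
  have h := (IsAlgClosed.splits (F.poly z)).natDegree_eq_card_roots
  rw [natDegree_poly] at h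
  exact h.symm

theorem D_eq (z : Fin 3 → ℂ) : F.D z =
    F.c 2 ^ (d - 1) * ((F.poly z).roots.map (Polynomial.derivative (F.poly z)).eval).prod := by
  have h := Polynomial.resultant_eq_prod_eval (F.poly z) (Polynomial.derivative (F.poly z)) (d - 1)
    (F.natDegree_derivative_le z) (IsAlgClosed.splits _)
  rw [natDegree_poly, leadingCoeff_poly] at h
  exact h

theorem D_ne_zero_iff {z : Fin 3 → ℂ} : F.D z ≠ 0 ↔
    ∀ w, (F.poly z).eval w = 0 → (Polynomial.derivative (F.poly z)).eval w ≠ 0 := by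
  have h0 : F.c 2 ^ (d - 1) ≠ 0 := pow_ne_zero _ (F.hc 2)
  rw [D_eq, mul_ne_zero_iff, Ne, Ne, Multiset.prod_eq_zero_iff]
  constructor
  · rintro ⟨-, h⟩ w hw h2
    refine h (Multiset.mem_map.2 ⟨w, ?_, h2⟩)
    exact (Polynomial.mem_roots (F.poly_ne_zero z)).2 hw
  · intro h
    refine ⟨h0, fun h2 => ?_⟩
    obtain ⟨w, hw, hw2⟩ := Multiset.mem_map.1 h2
    exact h w ((Polynomial.mem_roots (F.poly_ne_zero z)).1 hw) hw2

theorem nodup_roots {z : Fin 3 → ℂ} (hz : F.D z ≠ 0) : (F.poly z).roots.Nodup := by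
  rw [Multiset.nodup_iff_count_le_one]
  intro w
  rw [Polynomial.count_roots]
  by_contra hlt
  push Not at hlt
  have h1 := (Polynomial.one_lt_rootMultiplicity_iff_isRoot (F.poly_ne_zero z)).1 hlt
  exact (F.D_ne_zero_iff.1 hz) w h1.1 h1.2

/-- the roots -/
noncomputable def rts (z : Fin 3 → ℂ) : Finset ℂ := (F.poly z).roots.toFinset

theorem mem_rts {z : Fin 3 → ℂ} {w : ℂ} : w ∈ F.rts z ↔ (F.poly z).eval w = 0 := by
  rw [rts, Multiset.mem_toFinset, Polynomial.mem_roots (F.poly_ne_zero z), Polynomial.IsRoot]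

theorem mem_rts' {z : Fin 3 → ℂ} {w : ℂ} : w ∈ F.rts z ↔ F.G (z 2) (pt (z 0, z 1) w) = 0 := by
  rw [mem_rts, eval_poly]

theorem card_rts {z : Fin 3 → ℂ} (hz : F.D z ≠ 0) : (F.rts z).card = d := by
  rw [rts, Multiset.toFinset_card_of_nodup (F.nodup_roots hz), card_roots]

theorem D_eq_prod {z : Fin 3 → ℂ} (hz : F.D z ≠ 0) : F.D z =
    F.c 2 ^ (d - 1) * ∏ w ∈ F.rts z, (Polynomial.derivative (F.poly z)).eval w := by
  rw [D_eq]
  show _ = _ * (Multiset.map _ (F.poly z).roots.toFinset.val).prod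
  rw [Multiset.toFinset_val, Multiset.dedup_eq_self.2 (F.nodup_roots hz)]

end Fam

end Vale.Agent.P298.H755
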