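import Vale.Agent.P298.H755.Exh
import Vale.Agent.P298.H755.Fam

/-!
P298, block OT-B (helper755): the discriminant `F.D` of a family is holomorphic on the cylinder
`|τ| < r` and of polynomial growth together with its first derivatives.
-/

set_option linter.all false

open Filter Topology Metric MeasureTheory Set Vale.Agent.P298 Vale.Agent.P298.H379
open Vale.Agent.P300.L2
open scoped ENNReal NNReal ComplexConjugate Polynomial

namespace Vale.Agent.P298.H755

section basic

variable {n : ℕ} {j₀ : Fin n} {r : ℝ}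

theorem p0_nonneg' : ∀ z ∈ cyl j₀ r, 0 ≤ p0 j₀ r z := fun _ hz => p0_nonneg hz

theorem HG.coord (i : Fin n) : HG (cyl j₀ r) (p0 j₀ r) (fun z => z i) :=
  ⟨(diff_coord i).differentiableOn, ⟨1, 1, zero_le_one, fun z hz => by
      rw [one_mul, pow_one]
      exact (norm_le_pi_norm z i).trans (le_one_add_of_sq (norm_sq_le_p0 hz))⟩,
    fun j => (PG.const (if i = j then 1 else 0)).congr fun z _ => dz_coord i j z⟩

theorem HG.ofTau (hr : 0 < r) {f : ℂ → ℂ} (hf : DifferentiableOn ℂ f (ball 0 r)) {B : ℝ}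
    (hB : ∀ τ ∈ ball (0 : ℂ) r, ‖f τ‖ ≤ B) :
    HG (cyl j₀ r) (p0 j₀ r) (fun z => f (z j₀)) := by
  have hd : ∀ z ∈ cyl j₀ r, DifferentiableAt ℂ f (z j₀) := fun z hz =>
    (hf _ hz).differentiableAt (isOpen_ball.mem_nhds hz)
  have hdz : ∀ z ∈ cyl j₀ r, ∀ j, dz j (fun z : Fin n → ℂ => f (z j₀)) z =
      (if j₀ = j then 1 else 0) * deriv f (z j₀) := by
    intro z hz j
    have h1 : HasDerivAt f (deriv f (z j₀)) (z j₀) := (hd z hz).hasDerivAt
    have h2 : HasFDerivAt (fun z : Fin n → ℂ => z j₀)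
        (ContinuousLinearMap.proj (R := ℂ) (φ := fun _ : Fin n => ℂ) j₀) z :=
      (ContinuousLinearMap.proj (R := ℂ) (φ := fun _ : Fin n => ℂ) j₀).hasFDerivAt
    have h3 := h1.comp_hasFDerivAt z h2
    have h4 : HasFDerivAt (fun z : Fin n → ℂ => f (z j₀)) (deriv f (z j₀) •
        (ContinuousLinearMap.proj (R := ℂ) (φ := fun _ : Fin n => ℂ) j₀)) z := h3
    rw [dz_holo h4.differentiableAt, h4.fderiv]
    simp only [ContinuousLinearMap.smul_apply, ContinuousLinearMap.proj_apply, Pi.single_apply,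
      smul_eq_mul]
    ring
  refine ⟨fun z hz => ?_, ⟨|B|, 0, abs_nonneg _, fun z hz => ?_⟩, fun j => ?_⟩
  · exact ((hd z hz).comp z (diff_coord j₀ z)).differentiableWithinAt
  · rw [pow_zero, mul_one]
    exact (hB _ hz).trans (le_abs_self B)
  · have h1 : PG (cyl j₀ r) (p0 j₀ r) (fun z => deriv f (z j₀)) := by
      refine ⟨4 * r * |B|, 1, by positivity, fun z hz => ?_⟩
      · have h2 : ‖z j₀‖ < r := by simpa [cyl] using hz
        have hR : 0 < (r - ‖z j₀‖) / 2 := by linarith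
        have h3 : closedBall (z j₀) ((r - ‖z j₀‖) / 2) ⊆ ball (0 : ℂ) r := by
          intro w hw
          rw [mem_ball_zero_iff]
          rw [mem_closedBall, dist_eq_norm] at hw
          have : ‖w‖ ≤ ‖w - z j₀‖ + ‖z j₀‖ := by
            simpa using norm_add_le (w - z j₀) (z j₀)
          linarith
        have h4 : DiffContOnCl ℂ f (ball (z j₀) ((r - ‖z j₀‖) / 2)) := hf.diffContOnCl_ball h3
        have h5 := Complex.norm_deriv_le_of_forall_mem_sphere_norm_le hR h4 (C := |B|)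
          fun w hw => (hB w (h3 (sphere_subset_closedBall hw))).trans (le_abs_self B)
        refine h5.trans ?_
        have h6 := sub_pos_of_mem hz
        have h7 := inv_le_p0 hz
        rw [pow_one, div_le_iff₀ hR]
        have h8 : r ^ 2 - ‖z j₀‖ ^ 2 ≤ 2 * r * (r - ‖z j₀‖) := by nlinarith [norm_nonneg (z j₀)]
        have h9 : 1 ≤ (1 + p0 j₀ r z) * (r ^ 2 - ‖z j₀‖ ^ 2) := by
          rw [← inv_le_iff_one_le_mul₀ h6]
          linarith
        have h10 := p0_nonneg hz
        have h11 : 1 ≤ (1 + p0 j₀ r z) * (2 * r * (r - ‖z j₀‖)) :=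
          h9.trans (mul_le_mul_of_nonneg_left h8 (by linarith))
        have h12 := abs_nonneg B
        nlinarith
    exact ((PG.const _).mul p0_nonneg' h1).congr fun z hz => hdz z hz j

theorem HG.ite {P : Prop} [Decidable P] {s : Set (Fin n → ℂ)} {p : (Fin n → ℂ) → ℝ}
    {f : (Fin n → ℂ) → ℂ} (hf : HG s p f) : HG s p (fun z => if P then f z else 0) := by
  by_cases h : P
  · simpa [h] using hf
  · simpa [h] using HG.const (s := s) (p := p) 0

end basic

variable {d : ℕ} {r : ℝ}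

namespace Fam

variable (F : Fam d r)

theorem coeff_poly (z : Fin 3 → ℂ) (m : ℕ) : (F.poly z).coeff m =
    (if m = d then F.c 2 else 0) + ((if m = 0 then F.c 0 * z 0 ^ d + F.c 1 * z 1 ^ d else 0) +
      ∑ α : Mon d (d - 1), if m = (α.1 2 : ℕ) then
        F.b (z 2) α * (z 0 ^ (α.1 0 : ℕ) * z 1 ^ (α.1 1 : ℕ)) else 0) := by
  unfold poly
  rw [Polynomial.coeff_add, Polynomial.coeff_add, Polynomial.coeff_C_mul_X_pow,
    Polynomial.coeff_C, Polynomial.finsetSum_coeff]
  simp only [Polynomial.coeff_C_mul_X_pow]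

theorem HG_b (α : Mon d (d - 1)) : HG (cyl (2 : Fin 3) r) (p0 2 r) (fun z => F.b (z 2) α) := by
  obtain ⟨B, hB⟩ := F.bdd
  have h1 : DifferentiableOn ℂ (fun τ => F.b τ α) (ball (0 : ℂ) r) := by
    have := F.holo
    rw [differentiableOn_pi] at this
    exact this α
  exact HG.ofTau F.hr h1 fun τ hτ => (norm_le_pi_norm (F.b τ) α).trans (hB τ hτ)

theorem HG_coeff (m : ℕ) : HG (cyl 2 r) (p0 2 r) (fun z => (F.poly z).coeff m) := by
  have hO := isOpen_cyl (2 : Fin 3) r
  have hp := p0_nonneg' (j₀ := (2 : Fin 3)) (r := r)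
  have hx : ∀ (i : Fin 3) (k : ℕ), HG (cyl 2 r) (p0 2 r) (fun z => z i ^ k) := fun i k =>
    (HG.coord i).pow hO hp k
  refine HG.congr hO ?_ fun z _ => F.coeff_poly z m
  refine (HG.const _).ite.add hO hp (HG.add hO hp (HG.ite ?_) ?_)
  · exact ((HG.const _).mul hO hp (hx 0 d)).add hO hp ((HG.const _).mul hO hp (hx 1 d))
  · refine HG.sum hO hp _ fun α _ => HG.ite ?_
    exact (F.HG_b α).mul hO hp ((hx 0 _).mul hO hp (hx 1 _))

theorem HG_coeff' (m : ℕ) :
    HG (cyl 2 r) (p0 2 r) (fun z => (Polynomial.derivative (F.poly z)).coeff m) := by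
  have hO := isOpen_cyl (2 : Fin 3) r
  have hp := p0_nonneg' (j₀ := (2 : Fin 3)) (r := r)
  refine HG.congr hO ((F.HG_coeff (m + 1)).mul hO hp (HG.const ((m : ℂ) + 1))) fun z _ => ?_
  rw [Polynomial.coeff_derivative]

theorem HG_D : HG (cyl 2 r) (p0 2 r) F.D := by
  have hO := isOpen_cyl (2 : Fin 3) r
  have hp := p0_nonneg' (j₀ := (2 : Fin 3)) (r := r)
  unfold D Polynomial.resultant
  refine HG.det hO hp fun i j => ?_
  unfold Polynomial.sylvester
  simp only [Matrix.of_apply]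
  induction j using Fin.addCases with
  | left j => simpa only [Fin.addCases_left] using (F.HG_coeff' _).ite
  | right j => simpa only [Fin.addCases_right] using (F.HG_coeff _).ite

theorem V_eq : F.V = {z | z ∈ cyl 2 r ∧ F.D z ≠ 0} := rfl

theorem isOpen_V : IsOpen F.V := (exh_pe F.HG_D F.V_eq).1

/-- the exhaustion function `|z|² + 1/(r² - |τ|²) + 1/|D|²` -/
noncomputable def p : (Fin 3 → ℂ) → ℝ := pe 2 r fun z => (F.D z)⁻¹

theorem exh : ∃ (C : ℝ) (k : ℕ), Exh F.V F.p C k := (exh_pe F.HG_D F.V_eq).2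

end Fam

end Vale.Agent.P298.H755
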