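import Vale.Agent.P298.H755.Grow

/-!
P298, block OT-B (helper755): the exhaustion function
`|z|² + 1/(r² - |z_{j₀}|²) + 1/|D|²` of `{|z_{j₀}| < r, D ≠ 0}`.
-/

set_option linter.all false

open Filter Topology Metric MeasureTheory Set
open Vale.Agent.P300.L2
open scoped ENNReal NNReal ComplexConjugate

namespace Vale.Agent.P298.H755

variable {n : ℕ}

/-- the cylinder `|z_{j₀}| < r` -/
def cyl (j₀ : Fin n) (r : ℝ) : Set (Fin n → ℂ) := {z | z j₀ ∈ ball (0 : ℂ) r}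

theorem isOpen_cyl (j₀ : Fin n) (r : ℝ) : IsOpen (cyl j₀ r) :=
  isOpen_ball.preimage (continuous_apply j₀)

/-- `|z|² + 1/(r² - |z_{j₀}|²)` -/
noncomputable def p0 (j₀ : Fin n) (r : ℝ) (z : Fin n → ℂ) : ℝ :=
  ∑ i, ‖z i‖ ^ 2 + (r ^ 2 - ‖z j₀‖ ^ 2)⁻¹

/-- `|z|² + 1/(r² - |z_{j₀}|²) + |g|²` -/
noncomputable def pe (j₀ : Fin n) (r : ℝ) (g : (Fin n → ℂ) → ℂ) (z : Fin n → ℂ) : ℝ :=
  p0 j₀ r z + ‖g z‖ ^ 2

variable {j₀ : Fin n} {r : ℝ} {g : (Fin n → ℂ) → ℂ} {z : Fin n → ℂ}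

theorem sub_pos_of_mem (hz : z ∈ cyl j₀ r) : 0 < r ^ 2 - ‖z j₀‖ ^ 2 := by
  have h1 : ‖z j₀‖ < r := by simpa [cyl] using hz
  have h2 := norm_nonneg (z j₀)
  nlinarith

theorem sum_sq_nonneg (z : Fin n → ℂ) : 0 ≤ ∑ i, ‖z i‖ ^ 2 :=
  Finset.sum_nonneg fun _ _ => sq_nonneg _

theorem norm_sq_le_sum (z : Fin n → ℂ) : ‖z‖ ^ 2 ≤ ∑ i, ‖z i‖ ^ 2 := by
  have h0 := sum_sq_nonneg z
  have h1 : ‖z‖ ≤ √(∑ i, ‖z i‖ ^ 2) := by
    refine (pi_norm_le_iff_of_nonneg (Real.sqrt_nonneg _)).2 fun i => ?_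
    refine Real.le_sqrt_of_sq_le ?_
    exact Finset.single_le_sum (f := fun i => ‖z i‖ ^ 2) (fun _ _ => sq_nonneg _)
      (Finset.mem_univ i)
  calc ‖z‖ ^ 2 ≤ √(∑ i, ‖z i‖ ^ 2) ^ 2 := pow_le_pow_left₀ (norm_nonneg _) h1 2
    _ = _ := Real.sq_sqrt h0

theorem p0_nonneg (hz : z ∈ cyl j₀ r) : 0 ≤ p0 j₀ r z :=
  add_nonneg (sum_sq_nonneg z) (inv_nonneg.2 (sub_pos_of_mem hz).le)

theorem pe_nonneg (hz : z ∈ cyl j₀ r) : 0 ≤ pe j₀ r g z :=
  add_nonneg (p0_nonneg hz) (sq_nonneg _)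

theorem p0_le_pe : p0 j₀ r z ≤ pe j₀ r g z := le_add_of_nonneg_right (sq_nonneg _)

theorem norm_sq_le_p0 (hz : z ∈ cyl j₀ r) : ‖z‖ ^ 2 ≤ p0 j₀ r z :=
  (norm_sq_le_sum z).trans (le_add_of_nonneg_right (inv_nonneg.2 (sub_pos_of_mem hz).le))

theorem norm_sq_le_pe (hz : z ∈ cyl j₀ r) : ‖z‖ ^ 2 ≤ pe j₀ r g z :=
  (norm_sq_le_p0 hz).trans p0_le_pe

theorem inv_le_p0 (hz : z ∈ cyl j₀ r) : (r ^ 2 - ‖z j₀‖ ^ 2)⁻¹ ≤ p0 j₀ r z :=
  le_add_of_nonneg_left (sum_sq_nonneg z)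

theorem le_one_add_of_sq {x y : ℝ} (h : x ^ 2 ≤ y) : x ≤ 1 + y := by nlinarith [sq_nonneg (x - 1)]

theorem norm_le_pe (hz : z ∈ cyl j₀ r) : ‖z‖ ≤ 1 + pe j₀ r g z :=
  le_one_add_of_sq (norm_sq_le_pe hz)

theorem norm_g_le_pe (hz : z ∈ cyl j₀ r) : ‖g z‖ ≤ 1 + pe j₀ r g z :=
  le_one_add_of_sq (le_add_of_nonneg_left (p0_nonneg hz))

/-! ### Derivatives -/

section deriv

variable {V : Set (Fin n → ℂ)} {f : (Fin n → ℂ) → ℂ} {j k : Fin n}

theorem sq_eq (f : (Fin n → ℂ) → ℂ) :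
    (fun z => ((‖f z‖ ^ 2 : ℝ) : ℂ)) = fun z => f z * conj (f z) := by
  funext z
  rw [Complex.mul_conj, Complex.normSq_eq_norm_sq]

theorem diffAt (hV : IsOpen V) (hf : DifferentiableOn ℂ f V) (hz : z ∈ V) :
    DifferentiableAt ℂ f z := (hf z hz).differentiableAt (hV.mem_nhds hz)

theorem diffAtR (hV : IsOpen V) (hf : DifferentiableOn ℂ f V) (hz : z ∈ V) :
    DifferentiableAt ℝ f z := (diffAt hV hf hz).restrictScalars ℝ

theorem diff_conj {f : (Fin n → ℂ) → ℂ} (h : DifferentiableAt ℝ f z) :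
    DifferentiableAt ℝ (fun z => conj (f z)) z :=
  (Complex.conjCLE : ℂ →L[ℝ] ℂ).differentiableAt.comp z h

theorem diff_sq (hV : IsOpen V) (hf : DifferentiableOn ℂ f V) (hz : z ∈ V) :
    DifferentiableAt ℝ (fun z => ((‖f z‖ ^ 2 : ℝ) : ℂ)) z := by
  rw [sq_eq]
  exact (diffAtR hV hf hz).mul (diff_conj (diffAtR hV hf hz))

theorem dz_sq (hV : IsOpen V) (hf : DifferentiableOn ℂ f V) (hz : z ∈ V) (j : Fin n) :
    dz j (fun z => ((‖f z‖ ^ 2 : ℝ) : ℂ)) z = dz j f z * conj (f z) := by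
  have h := diffAtR hV hf hz
  rw [sq_eq, dz_mul h (diff_conj h), dz_conj, dzb_holo (diffAt hV hf hz), map_zero, mul_zero,
    add_zero]

theorem dzb_sq (hV : IsOpen V) (hf : DifferentiableOn ℂ f V) (hz : z ∈ V) (k : Fin n) :
    dzb k (fun z => ((‖f z‖ ^ 2 : ℝ) : ℂ)) z = f z * conj (dz k f z) := by
  have h := diffAtR hV hf hz
  rw [sq_eq, dzb_mul h (diff_conj h), dzb_conj, dzb_holo (diffAt hV hf hz), zero_mul, zero_add]

theorem diff_dzb_sq (hV : IsOpen V) (hf : DifferentiableOn ℂ f V) (hz : z ∈ V) (k : Fin n) :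
    DifferentiableAt ℝ (dzb k (fun z => ((‖f z‖ ^ 2 : ℝ) : ℂ))) z := by
  have h1 : dzb k (fun z => ((‖f z‖ ^ 2 : ℝ) : ℂ)) =ᶠ[𝓝 z] fun z => f z * conj (dz k f z) := by
    filter_upwards [hV.mem_nhds hz] with y hy
    exact dzb_sq hV hf hy k
  refine DifferentiableAt.congr_of_eventuallyEq ?_ h1
  exact (diffAtR hV hf hz).mul (diff_conj (diffAtR hV (differentiableOn_dz_holo hV hf) hz))

theorem dz_dzb_sq (hV : IsOpen V) (hf : DifferentiableOn ℂ f V) (hz : z ∈ V) (j k : Fin n) :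
    dz j (dzb k (fun z => ((‖f z‖ ^ 2 : ℝ) : ℂ))) z = dz j f z * conj (dz k f z) := by
  have h1 : dzb k (fun z => ((‖f z‖ ^ 2 : ℝ) : ℂ)) =ᶠ[𝓝 z] fun z => f z * conj (dz k f z) := by
    filter_upwards [hV.mem_nhds hz] with y hy
    exact dzb_sq hV hf hy k
  have hd := differentiableOn_dz_holo (j := k) hV hf
  rw [dz_congr h1, dz_mul (diffAtR hV hf hz) (diff_conj (diffAtR hV hd hz)), dz_conj,
    dzb_holo (diffAt hV hd hz), map_zero, mul_zero, add_zero]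

theorem diff_coord (i : Fin n) : Differentiable ℂ fun z : Fin n → ℂ => z i :=
  differentiable_pi.1 differentiable_id i

theorem dz_coord (i j : Fin n) (z : Fin n → ℂ) :
    dz j (fun z : Fin n → ℂ => z i) z = if i = j then 1 else 0 := by
  rw [dz_holo (diff_coord i z)]
  have h1 : fderiv ℂ (fun z : Fin n → ℂ => z i) z = ContinuousLinearMap.proj i :=
    (ContinuousLinearMap.proj (R := ℂ) (φ := fun _ : Fin n => ℂ) i).fderiv
  rw [h1, ContinuousLinearMap.proj_apply, Pi.single_apply]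

theorem dz_inv (hf : DifferentiableAt ℝ f z) (h0 : f z ≠ 0) :
    dz j (fun z => (f z)⁻¹) z = -(dz j f z * ((f z)⁻¹ * (f z)⁻¹)) := by
  have hi : DifferentiableAt ℝ (fun z => (f z)⁻¹) z := hf.inv h0
  have h1 : (fun z => f z * (f z)⁻¹) =ᶠ[𝓝 z] fun _ => (1 : ℂ) := by
    filter_upwards [hf.continuousAt.eventually_ne h0] with y hy
    exact mul_inv_cancel₀ hy
  have h2 := dz_congr (j := j) h1
  rw [dz_const, dz_mul hf hi] at h2
  have h4 : f z * dz j (fun z => (f z)⁻¹) z = f z * -(dz j f z * ((f z)⁻¹ * (f z)⁻¹)) := by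
    have h5 : f z * -(dz j f z * ((f z)⁻¹ * (f z)⁻¹)) =
        -(dz j f z * (f z)⁻¹) * (f z * (f z)⁻¹) := by ring
    rw [h5, mul_inv_cancel₀ h0]
    linear_combination h2
  exact mul_left_cancel₀ h0 h4

theorem dzb_inv (hf : DifferentiableAt ℝ f z) (h0 : f z ≠ 0) :
    dzb j (fun z => (f z)⁻¹) z = -(dzb j f z * ((f z)⁻¹ * (f z)⁻¹)) := by
  have hi : DifferentiableAt ℝ (fun z => (f z)⁻¹) z := hf.inv h0
  have h1 : (fun z => f z * (f z)⁻¹) =ᶠ[𝓝 z] fun _ => (1 : ℂ) := by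
    filter_upwards [hf.continuousAt.eventually_ne h0] with y hy
    exact mul_inv_cancel₀ hy
  have h2 := dzb_congr (j := j) h1
  rw [dzb_const, dzb_mul hf hi] at h2
  have h4 : f z * dzb j (fun z => (f z)⁻¹) z = f z * -(dzb j f z * ((f z)⁻¹ * (f z)⁻¹)) := by
    have h5 : f z * -(dzb j f z * ((f z)⁻¹ * (f z)⁻¹)) =
        -(dzb j f z * (f z)⁻¹) * (f z * (f z)⁻¹) := by ring
    rw [h5, mul_inv_cancel₀ h0]
    linear_combination h2
  exact mul_left_cancel₀ h0 h4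

end deriv

/-! ### The function `1/(r² - |z_{j₀}|²)` -/

/-- `r² - |z_{j₀}|²` -/
noncomputable def uu (j₀ : Fin n) (r : ℝ) (z : Fin n → ℂ) : ℂ := (r : ℂ) ^ 2 - z j₀ * conj (z j₀)

/-- `1/(r² - |z_{j₀}|²)` -/
noncomputable def bb (j₀ : Fin n) (r : ℝ) (z : Fin n → ℂ) : ℂ := (uu j₀ r z)⁻¹

theorem uu_eq (z : Fin n → ℂ) : uu j₀ r z = ((r ^ 2 - ‖z j₀‖ ^ 2 : ℝ) : ℂ) := by
  rw [uu, Complex.mul_conj, Complex.normSq_eq_norm_sq]
  push_cast
  ring

theorem bb_eq (z : Fin n → ℂ) : bb j₀ r z = (((r ^ 2 - ‖z j₀‖ ^ 2)⁻¹ : ℝ) : ℂ) := by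
  rw [bb, uu_eq, Complex.ofReal_inv]

theorem uu_ne_zero (hz : z ∈ cyl j₀ r) : uu j₀ r z ≠ 0 := by
  rw [uu_eq]
  exact_mod_cast (sub_pos_of_mem hz).ne'

theorem coordR (i : Fin n) (z : Fin n → ℂ) : DifferentiableAt ℝ (fun z : Fin n → ℂ => z i) z :=
  (diff_coord i z).restrictScalars ℝ

theorem diff_uu (z : Fin n → ℂ) : DifferentiableAt ℝ (uu j₀ r) z :=
  (differentiableAt_const _).sub ((coordR j₀ z).mul (diff_conj (coordR j₀ z)))

theorem diff_bb (hz : z ∈ cyl j₀ r) : DifferentiableAt ℝ (bb j₀ r) z :=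
  (diff_uu z).inv (uu_ne_zero hz)

theorem dz_uu (j : Fin n) (z : Fin n → ℂ) :
    dz j (uu j₀ r) z = -((if j₀ = j then 1 else 0) * conj (z j₀)) := by
  have h1 : uu j₀ r = fun z => (r : ℂ) ^ 2 + (-1 : ℂ) * (z j₀ * conj (z j₀)) := by
    funext z
    rw [uu]
    ring
  have h2 : DifferentiableAt ℝ (fun z : Fin n → ℂ => z j₀ * conj (z j₀)) z :=
    (coordR j₀ z).mul (diff_conj (coordR j₀ z))
  rw [h1, dz_add (differentiableAt_const _) ((differentiableAt_const _).fun_mul h2), dz_const,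
    dz_mul (differentiableAt_const _) h2, dz_const,
    dz_mul (coordR j₀ z) (diff_conj (coordR j₀ z)), dz_conj, dzb_holo (diff_coord j₀ z), dz_coord,
    map_zero]
  ring

theorem dzb_uu (j : Fin n) (z : Fin n → ℂ) :
    dzb j (uu j₀ r) z = -((if j₀ = j then 1 else 0) * z j₀) := by
  have h1 : uu j₀ r = fun z => (r : ℂ) ^ 2 + (-1 : ℂ) * (z j₀ * conj (z j₀)) := by
    funext z
    rw [uu]
    ring
  have h2 : DifferentiableAt ℝ (fun z : Fin n → ℂ => z j₀ * conj (z j₀)) z :=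
    (coordR j₀ z).mul (diff_conj (coordR j₀ z))
  have h3 : conj (if j₀ = j then (1 : ℂ) else 0) = if j₀ = j then (1 : ℂ) else 0 := by
    split_ifs <;> simp
  rw [h1, dzb_add (differentiableAt_const _) ((differentiableAt_const _).fun_mul h2), dzb_const,
    dzb_mul (differentiableAt_const _) h2, dzb_const,
    dzb_mul (coordR j₀ z) (diff_conj (coordR j₀ z)), dzb_conj, dzb_holo (diff_coord j₀ z),
    dz_coord, h3]
  ring

theorem dz_bb (hz : z ∈ cyl j₀ r) (j : Fin n) :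
    dz j (bb j₀ r) z = (if j₀ = j then 1 else 0) * conj (z j₀) * (bb j₀ r z * bb j₀ r z) := by
  have h := dz_inv (j := j) (diff_uu (j₀ := j₀) (r := r) z) (uu_ne_zero hz)
  have h' : dz j (bb j₀ r) z = dz j (fun z => (uu j₀ r z)⁻¹) z := rfl
  rw [h', h, dz_uu]
  simp only [bb]
  ring

theorem dzb_bb (hz : z ∈ cyl j₀ r) (j : Fin n) :
    dzb j (bb j₀ r) z = (if j₀ = j then 1 else 0) * z j₀ * (bb j₀ r z * bb j₀ r z) := by
  have h := dzb_inv (j := j) (diff_uu (j₀ := j₀) (r := r) z) (uu_ne_zero hz)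
  have h' : dzb j (bb j₀ r) z = dzb j (fun z => (uu j₀ r z)⁻¹) z := rfl
  rw [h', h, dzb_uu]
  simp only [bb]
  ring

theorem diff_dzb_bb (hz : z ∈ cyl j₀ r) (k : Fin n) : DifferentiableAt ℝ (dzb k (bb j₀ r)) z := by
  have h1 : dzb k (bb j₀ r) =ᶠ[𝓝 z] fun z => (if j₀ = k then (1 : ℂ) else 0) * z j₀ *
      (bb j₀ r z * bb j₀ r z) := by
    filter_upwards [(isOpen_cyl j₀ r).mem_nhds hz] with y hy
    exact dzb_bb hy k
  refine DifferentiableAt.congr_of_eventuallyEq ?_ h1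
  exact ((differentiableAt_const _).mul (coordR j₀ z)).mul ((diff_bb hz).mul (diff_bb hz))

theorem dz_dzb_bb (hz : z ∈ cyl j₀ r) (j k : Fin n) : dz j (dzb k (bb j₀ r)) z =
    (if j₀ = k then 1 else 0) * (if j₀ = j then 1 else 0) *
      (((r ^ 2 - ‖z j₀‖ ^ 2)⁻¹ ^ 2 + 2 * ‖z j₀‖ ^ 2 * (r ^ 2 - ‖z j₀‖ ^ 2)⁻¹ ^ 3 : ℝ) : ℂ) := by
  have h1 : dzb k (bb j₀ r) =ᶠ[𝓝 z] fun z => (if j₀ = k then (1 : ℂ) else 0) * z j₀ *
      (bb j₀ r z * bb j₀ r z) := by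
    filter_upwards [(isOpen_cyl j₀ r).mem_nhds hz] with y hy
    exact dzb_bb hy k
  have hb := diff_bb hz
  have h2 : DifferentiableAt ℝ (fun z : Fin n → ℂ => (if j₀ = k then (1 : ℂ) else 0) * z j₀) z :=
    (differentiableAt_const _).mul (coordR j₀ z)
  rw [dz_congr h1, dz_mul h2 (hb.fun_mul hb), dz_mul (differentiableAt_const _) (coordR j₀ z),
    dz_const, dz_coord, dz_mul hb hb, dz_bb hz]
  have h3 : z j₀ * conj (z j₀) = ((‖z j₀‖ ^ 2 : ℝ) : ℂ) := by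
    rw [Complex.mul_conj, Complex.normSq_eq_norm_sq]
  have h4 := bb_eq (j₀ := j₀) (r := r) z
  push_cast at h3 h4 ⊢
  rw [← h4, ← h3]
  ring

/-! ### The exhaustion function -/

section exh

variable {V : Set (Fin n → ℂ)}

theorem pe_cast (g : (Fin n → ℂ) → ℂ) : (fun z => (pe j₀ r g z : ℂ)) = fun z =>
    ∑ i, ((‖z i‖ ^ 2 : ℝ) : ℂ) + bb j₀ r z + ((‖g z‖ ^ 2 : ℝ) : ℂ) := by
  funext z
  rw [bb_eq]
  unfold pe p0
  push_cast
  rfl

theorem diff_sum_sq (z : Fin n → ℂ) :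
    DifferentiableAt ℝ (fun z : Fin n → ℂ => ∑ i, ((‖z i‖ ^ 2 : ℝ) : ℂ)) z :=
  DifferentiableAt.fun_sum fun i _ =>
    diff_sq isOpen_univ (diff_coord i).differentiableOn (mem_univ z)

theorem dz_pe (hO : IsOpen V) (hV : V ⊆ cyl j₀ r) (hg : DifferentiableOn ℂ g V) (hz : z ∈ V)
    (j : Fin n) : dz j (fun z => (pe j₀ r g z : ℂ)) z = conj (z j) +
      (if j₀ = j then 1 else 0) * conj (z j₀) * (bb j₀ r z * bb j₀ r z) +
      dz j g z * conj (g z) := by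
  have h1 : dz j (fun z : Fin n → ℂ => ∑ i, ((‖z i‖ ^ 2 : ℝ) : ℂ)) z = conj (z j) := by
    rw [dz_sum _ fun i _ => diff_sq isOpen_univ (diff_coord i).differentiableOn (mem_univ z),
      Finset.sum_congr rfl fun i _ => dz_sq isOpen_univ (diff_coord i).differentiableOn
        (mem_univ z) j]
    simp [dz_coord]
  rw [pe_cast, dz_add ((diff_sum_sq z).fun_add (diff_bb (hV hz))) (diff_sq hO hg hz),
    dz_add (diff_sum_sq z) (diff_bb (hV hz)), h1, dz_bb (hV hz), dz_sq hO hg hz]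

theorem dzb_pe (hO : IsOpen V) (hV : V ⊆ cyl j₀ r) (hg : DifferentiableOn ℂ g V) (hz : z ∈ V)
    (k : Fin n) : dzb k (fun z => (pe j₀ r g z : ℂ)) z =
      ∑ i, dzb k (fun z : Fin n → ℂ => ((‖z i‖ ^ 2 : ℝ) : ℂ)) z + dzb k (bb j₀ r) z +
      dzb k (fun z => ((‖g z‖ ^ 2 : ℝ) : ℂ)) z := by
  rw [pe_cast, dzb_add ((diff_sum_sq z).fun_add (diff_bb (hV hz))) (diff_sq hO hg hz),
    dzb_add (diff_sum_sq z) (diff_bb (hV hz)),
    dzb_sum _ fun i _ => diff_sq isOpen_univ (diff_coord i).differentiableOn (mem_univ z)]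

theorem dz_dzb_pe (hO : IsOpen V) (hV : V ⊆ cyl j₀ r) (hg : DifferentiableOn ℂ g V) (hz : z ∈ V)
    (j k : Fin n) : dz j (dzb k (fun z => (pe j₀ r g z : ℂ))) z =
      (if j = k then 1 else 0) + (if j₀ = k then 1 else 0) * (if j₀ = j then 1 else 0) *
      (((r ^ 2 - ‖z j₀‖ ^ 2)⁻¹ ^ 2 + 2 * ‖z j₀‖ ^ 2 * (r ^ 2 - ‖z j₀‖ ^ 2)⁻¹ ^ 3 : ℝ) : ℂ) +
      dz j g z * conj (dz k g z) := by
  have h1 : dzb k (fun z => (pe j₀ r g z : ℂ)) =ᶠ[𝓝 z] fun z =>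
      ∑ i, dzb k (fun z : Fin n → ℂ => ((‖z i‖ ^ 2 : ℝ) : ℂ)) z + dzb k (bb j₀ r) z +
      dzb k (fun z => ((‖g z‖ ^ 2 : ℝ) : ℂ)) z := by
    filter_upwards [hO.mem_nhds hz] with y hy
    exact dzb_pe hO hV hg hy k
  have hc : ∀ i : Fin n, DifferentiableAt ℝ
      (dzb k (fun z : Fin n → ℂ => ((‖z i‖ ^ 2 : ℝ) : ℂ))) z := fun i =>
    diff_dzb_sq isOpen_univ (diff_coord i).differentiableOn (mem_univ z) k
  have hs : DifferentiableAt ℝ (fun z =>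
      ∑ i, dzb k (fun z : Fin n → ℂ => ((‖z i‖ ^ 2 : ℝ) : ℂ)) z) z :=
    DifferentiableAt.fun_sum fun i _ => hc i
  rw [dz_congr h1, dz_add (hs.fun_add (diff_dzb_bb (hV hz) k)) (diff_dzb_sq hO hg hz k),
    dz_add hs (diff_dzb_bb (hV hz) k), dz_sum _ fun i _ => hc i, dz_dzb_sq hO hg hz,
    dz_dzb_bb (hV hz)]
  congr 2
  rw [Finset.sum_congr rfl fun i _ => dz_dzb_sq isOpen_univ (diff_coord i).differentiableOn
    (mem_univ z) j k]
  simp [dz_coord, eq_comm]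

theorem levi_pe (hO : IsOpen V) (hV : V ⊆ cyl j₀ r) (hg : DifferentiableOn ℂ g V) (hz : z ∈ V)
    (β : Fin n → ℂ) : ∑ j, ‖β j‖ ^ 2 ≤
    (∑ j, ∑ k, dz j (dzb k (fun z => (pe j₀ r g z : ℂ))) z * β j * conj (β k)).re := by
  obtain ⟨h, hh⟩ : ∃ h : Fin n → ℂ, h = fun j => dz j g z := ⟨_, rfl⟩
  obtain ⟨c, hc⟩ : ∃ c : ℝ, c = (r ^ 2 - ‖z j₀‖ ^ 2)⁻¹ ^ 2 +
    2 * ‖z j₀‖ ^ 2 * (r ^ 2 - ‖z j₀‖ ^ 2)⁻¹ ^ 3 := ⟨_, rfl⟩
  have hc0 : 0 ≤ c := by
    have := sub_pos_of_mem (hV hz)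
    rw [hc]
    positivity
  have e1 : ∑ j, ∑ k, dz j (dzb k (fun z => (pe j₀ r g z : ℂ))) z * β j * conj (β k) =
      ((∑ j, ‖β j‖ ^ 2 + c * ‖β j₀‖ ^ 2 + ‖∑ j, h j * β j‖ ^ 2 : ℝ) : ℂ) := by
    have e2 : ∀ j k, dz j (dzb k (fun z => (pe j₀ r g z : ℂ))) z * β j * conj (β k) =
        (if j = k then β j * conj (β k) else 0) +
        (if j₀ = j then (if j₀ = k then (c : ℂ) * (β j * conj (β k)) else 0) else 0) +
        (h j * β j) * conj (h k * β k) := by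
      intro j k
      rw [dz_dzb_pe hO hV hg hz, hh, map_mul, hc]
      push_cast
      split_ifs <;> ring
    simp only [e2, Finset.sum_add_distrib, Finset.sum_ite_eq, Finset.mem_univ, if_true]
    have e3 : ∑ j, ∑ k, (if j₀ = j then (if j₀ = k then (c : ℂ) * (β j * conj (β k)) else 0)
        else 0) = (c : ℂ) * (β j₀ * conj (β j₀)) := by
      rw [Finset.sum_eq_single j₀]
      · simp
      · intro j _ hj
        simp [Ne.symm hj]
      · simp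
    rw [e3]
    push_cast
    congr 1
    · congr 1
      · refine Finset.sum_congr rfl fun j _ => ?_
        rw [Complex.mul_conj, Complex.normSq_eq_norm_sq]
        push_cast
        rfl
      · rw [Complex.mul_conj, Complex.normSq_eq_norm_sq]
        push_cast
        rfl
    · rw [← Finset.sum_mul_sum, ← map_sum, Complex.mul_conj, Complex.normSq_eq_norm_sq]
      push_cast
      rfl
  rw [e1, Complex.ofReal_re]
  have h1 := sq_nonneg ‖∑ j, h j * β j‖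
  have h2 : 0 ≤ c * ‖β j₀‖ ^ 2 := mul_nonneg hc0 (sq_nonneg _)
  linarith

theorem smooth_pe (hO : IsOpen V) (hV : V ⊆ cyl j₀ r) (hg : DifferentiableOn ℂ g V) :
    ContDiffOn ℝ 4 (pe j₀ r g) V := by
  have h1 : ContDiffOn ℝ (4 : ℕ) g V := Sheets.contDiffOn_real_of_holo hO hg 4
  have hc : ∀ i : Fin n, ContDiff ℝ 4 (fun z : Fin n → ℂ => ‖z i‖ ^ 2) := fun i =>
    (contDiff_norm_sq ℝ).comp (contDiff_apply ℝ ℂ i)
  unfold pe p0
  refine ContDiffOn.add (ContDiffOn.add ?_ ?_) ?_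
  · exact ContDiff.contDiffOn (ContDiff.sum fun i _ => hc i)
  · refine ContDiffOn.inv ?_ fun z hz => (sub_pos_of_mem (hV hz)).ne'
    exact (contDiff_const.sub (hc j₀)).contDiffOn
  · exact (contDiff_norm_sq ℝ).comp_contDiffOn h1

theorem compact_pe {D : (Fin n → ℂ) → ℂ} (hD : ContinuousOn D (cyl j₀ r))
    (hV : V = {z | z ∈ cyl j₀ r ∧ D z ≠ 0}) (c : ℝ) :
    IsCompact {z | z ∈ V ∧ pe j₀ r (fun z => (D z)⁻¹) z ≤ c} := by
  subst hV
  refine Metric.isCompact_of_isClosed_isBounded ?_ ?_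
  · rw [← isSeqClosed_iff_isClosed]
    intro z a hz ha
    have hτ : Tendsto (fun m => ‖z m j₀‖ ^ 2) atTop (𝓝 (‖a j₀‖ ^ 2)) :=
      (((continuous_apply j₀).tendsto a).comp ha).norm.pow 2
    -- the limit is in the cylinder
    have h1 : ∀ m, 1 ≤ c * (r ^ 2 - ‖z m j₀‖ ^ 2) := by
      intro m
      have h2 := sub_pos_of_mem (hz m).1.1
      have h3 := (hz m).2
      have h4 := inv_le_p0 (hz m).1.1
      have h5 := p0_le_pe (j₀ := j₀) (r := r) (g := fun z => (D z)⁻¹) (z := z m)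
      have h6 : (r ^ 2 - ‖z m j₀‖ ^ 2)⁻¹ ≤ c := h4.trans (h5.trans h3)
      rwa [inv_le_iff_one_le_mul₀ h2] at h6
    have hc0 : 0 ≤ c := (pe_nonneg (hz 0).1.1).trans (hz 0).2
    have h2 : 1 ≤ c * (r ^ 2 - ‖a j₀‖ ^ 2) :=
      ge_of_tendsto ((tendsto_const_nhds.sub hτ).const_mul c) (Eventually.of_forall h1)
    have hr : 0 < r := by
      have := (hz 0).1.1
      simp only [cyl, mem_ball_zero_iff, mem_ofPred_eq] at this
      exact (norm_nonneg _).trans_lt this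
    have h3 : a ∈ cyl j₀ r := by
      simp only [cyl, mem_ball_zero_iff, mem_ofPred_eq]
      by_contra hn
      push Not at hn
      have h4 : r ^ 2 ≤ ‖a j₀‖ ^ 2 := pow_le_pow_left₀ hr.le hn 2
      nlinarith
    have hDa : Tendsto (fun m => D (z m)) atTop (𝓝 (D a)) := by
      have := (hD.continuousAt ((isOpen_cyl j₀ r).mem_nhds h3)).tendsto
      exact this.comp ha
    -- `D` does not vanish at the limit
    have h4 : ∀ m, 1 ≤ c * ‖D (z m)‖ ^ 2 := by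
      intro m
      have h2 : 0 < ‖D (z m)‖ ^ 2 := by
        have := (hz m).1.2
        positivity
      have h3 := (hz m).2
      have h4 := p0_nonneg (hz m).1.1
      have h6 : (‖D (z m)‖ ^ 2)⁻¹ ≤ c := by
        refine le_trans ?_ h3
        unfold pe
        rw [norm_inv, inv_pow]
        linarith
      rwa [inv_le_iff_one_le_mul₀ h2] at h6
    have h5 : 1 ≤ c * ‖D a‖ ^ 2 :=
      ge_of_tendsto ((hDa.norm.pow 2).const_mul c) (Eventually.of_forall h4)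
    have h6 : D a ≠ 0 := by
      intro h
      rw [h] at h5
      norm_num at h5
    refine ⟨⟨h3, h6⟩, ?_⟩
    have h7 : Tendsto (fun m => pe j₀ r (fun z => (D z)⁻¹) (z m)) atTop
        (𝓝 (pe j₀ r (fun z => (D z)⁻¹) a)) := by
      unfold pe p0
      refine Tendsto.add (Tendsto.add ?_ ?_) ?_
      · exact tendsto_finsetSum _ fun i _ => (((continuous_apply i).tendsto a).comp ha).norm.pow 2
      · exact (tendsto_const_nhds.sub hτ).inv₀ (sub_pos_of_mem h3).ne'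
      · exact (hDa.inv₀ h6).norm.pow 2
    exact le_of_tendsto h7 (Eventually.of_forall fun m => (hz m).2)
  · refine (Metric.isBounded_closedBall (x := (0 : Fin n → ℂ)) (r := 1 + c)).subset ?_
    rintro z ⟨hz, hzc⟩
    rw [mem_closedBall_zero_iff]
    exact (norm_le_pe hz.1).trans (by linarith)

/-- growth of the gradient -/
theorem grad_pe (hO : IsOpen V) (hV : V ⊆ cyl j₀ r) (hg : DifferentiableOn ℂ g V)
    (hgd : ∀ j, PG V (pe j₀ r g) (dz j g)) : ∃ (C : ℝ) (k : ℕ), ∀ z ∈ V,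
      ∑ j, ‖dz j (fun z => (pe j₀ r g z : ℂ)) z‖ ^ 2 ≤ C * (1 + pe j₀ r g z) ^ k := by
  have hp : ∀ z ∈ V, 0 ≤ pe j₀ r g z := fun z hz => pe_nonneg (hV hz)
  have h1 : ∀ i, PG V (pe j₀ r g) (fun z => z i) := fun i =>
    ⟨1, 1, zero_le_one, fun z hz => by
      rw [one_mul, pow_one]
      exact (norm_le_pi_norm z i).trans (norm_le_pe (hV hz))⟩
  have h2 : PG V (pe j₀ r g) g := ⟨1, 1, zero_le_one, fun z hz => by
      rw [one_mul, pow_one]
      exact norm_g_le_pe (hV hz)⟩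
  have h3 : PG V (pe j₀ r g) (bb j₀ r) := ⟨1, 1, zero_le_one, fun z hz => by
      rw [one_mul, pow_one, bb_eq, Complex.norm_real, Real.norm_eq_abs,
        abs_of_nonneg (inv_nonneg.2 (sub_pos_of_mem (hV hz)).le)]
      have h4 := inv_le_p0 (hV hz)
      have h5 := p0_le_pe (j₀ := j₀) (r := r) (g := g) (z := z)
      linarith⟩
  have h4 : ∀ j, PG V (pe j₀ r g) (dz j (fun z => (pe j₀ r g z : ℂ))) := by
    intro j
    refine PG.congr ?_ fun z hz => dz_pe hO hV hg hz j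
    refine ((h1 j).conj.add hp ?_).add hp ((hgd j).mul hp h2.conj)
    exact ((PG.const _).mul hp (h1 j₀).conj).mul hp (h3.mul hp h3)
  have h5 : ∀ j, PG V (pe j₀ r g) (fun z => dz j (fun z => (pe j₀ r g z : ℂ)) z *
      dz j (fun z => (pe j₀ r g z : ℂ)) z) := fun j => (h4 j).mul hp (h4 j)
  choose C k hC hb using h5
  refine ⟨∑ j, C j, ∑ j, k j, fun z hz => ?_⟩
  rw [Finset.sum_mul]
  refine Finset.sum_le_sum fun j _ => ?_
  have h6 := hb j z hz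
  rw [norm_mul, ← sq] at h6
  refine h6.trans (mul_le_mul_of_nonneg_left ?_ (hC j))
  have := hp z hz
  exact pow_le_pow_right₀ (by linarith) (Finset.single_le_sum (f := k)
    (fun _ _ => Nat.zero_le _) (Finset.mem_univ j))

/-- **The exhaustion function** of `{|z_{j₀}| < r, D ≠ 0}` for a holomorphic function `D` of
polynomial growth. -/
theorem exh_pe {D : (Fin n → ℂ) → ℂ} (hD : HG (cyl j₀ r) (p0 j₀ r) D)
    (hV : V = {z | z ∈ cyl j₀ r ∧ D z ≠ 0}) :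
    IsOpen V ∧ ∃ (C : ℝ) (k : ℕ), Exh V (pe j₀ r fun z => (D z)⁻¹) C k := by
  have hO : IsOpen V := by
    rw [hV]
    exact hD.diff.continuousOn.isOpen_inter_preimage (isOpen_cyl j₀ r) isOpen_ne
  have hVc : V ⊆ cyl j₀ r := by
    rw [hV]
    exact fun z hz => hz.1
  have hD0 : ∀ z ∈ V, D z ≠ 0 := by
    rw [hV]
    exact fun z hz => hz.2
  have hg : DifferentiableOn ℂ (fun z => (D z)⁻¹) V := (hD.diff.mono hVc).inv hD0
  have hp : ∀ z ∈ V, 0 ≤ pe j₀ r (fun z => (D z)⁻¹) z := fun z hz => pe_nonneg (hVc hz)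
  have hgi : PG V (pe j₀ r fun z => (D z)⁻¹) (fun z => (D z)⁻¹) := ⟨1, 1, zero_le_one,
    fun z hz => by
      rw [one_mul, pow_one]
      exact norm_g_le_pe (g := fun z => (D z)⁻¹) (hVc hz)⟩
  have hgd : ∀ j, PG V (pe j₀ r fun z => (D z)⁻¹) (dz j fun z => (D z)⁻¹) := by
    intro j
    have h1 : PG V (pe j₀ r fun z => (D z)⁻¹) (dz j D) :=
      (hD.dgr j).mono (fun z hz => p0_nonneg (hVc hz)) hVc fun z _ => p0_le_pe
    refine PG.congr ((h1.mul hp (hgi.mul hp hgi)).neg) fun z hz => ?_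
    exact dz_inv (diffAtR (isOpen_cyl j₀ r) hD.diff (hVc hz)) (hD0 z hz)
  obtain ⟨C, k, h⟩ := grad_pe hO hVc hg hgd
  exact ⟨hO, C, k, smooth_pe hO hVc hg, fun z hz => norm_sq_le_pe (hVc hz),
    compact_pe hD.diff.continuousOn hV, fun z hz => levi_pe hO hVc hg hz, h⟩

end exh

end Vale.Agent.P298.H755
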