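import Vale.Agent.P300.H435.L2.Basic

/-!
P298, block OT-B (helper755): functions of polynomial growth in `p`, and holomorphic functions with
first derivatives of polynomial growth.
-/

set_option linter.all false

open Filter Topology Metric MeasureTheory Set
open Vale.Agent.P300.L2
open scoped ENNReal NNReal ComplexConjugate

namespace Vale.Agent.P298.H755

/-- `f` grows at most polynomially in `p` on `s`. -/
def PG {X : Type*} (s : Set X) (p : X → ℝ) (f : X → ℂ) : Prop :=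
  ∃ (C : ℝ) (k : ℕ), 0 ≤ C ∧ ∀ x ∈ s, ‖f x‖ ≤ C * (1 + p x) ^ k

section PG

variable {X : Type*} {s : Set X} {p : X → ℝ} {f g : X → ℂ}

theorem PG.congr (h : PG s p f) (hfg : ∀ x ∈ s, g x = f x) : PG s p g := by
  obtain ⟨C, k, hC, h⟩ := h
  exact ⟨C, k, hC, fun x hx => by rw [hfg x hx]; exact h x hx⟩

theorem PG.of_le (h : PG s p f) (hfg : ∀ x ∈ s, ‖g x‖ ≤ ‖f x‖) : PG s p g := by
  obtain ⟨C, k, hC, h⟩ := h
  exact ⟨C, k, hC, fun x hx => (hfg x hx).trans (h x hx)⟩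

theorem PG.const (c : ℂ) : PG s p (fun _ => c) :=
  ⟨‖c‖, 0, norm_nonneg _, fun x _ => by simp⟩

theorem PG.exists_le (hp : ∀ x ∈ s, 0 ≤ p x) (h : PG s p f) :
    ∃ k₀ : ℕ, ∃ C : ℝ, 0 ≤ C ∧ ∀ k, k₀ ≤ k → ∀ x ∈ s, ‖f x‖ ≤ C * (1 + p x) ^ k := by
  obtain ⟨C, k₀, hC, h⟩ := h
  refine ⟨k₀, C, hC, fun k hk x hx => (h x hx).trans ?_⟩
  have := hp x hx
  exact mul_le_mul_of_nonneg_left (pow_le_pow_right₀ (by linarith) hk) hC

theorem PG.add (hp : ∀ x ∈ s, 0 ≤ p x) (hf : PG s p f) (hg : PG s p g) :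
    PG s p (fun x => f x + g x) := by
  obtain ⟨k₁, C₁, h₁, e₁⟩ := hf.exists_le hp
  obtain ⟨k₂, C₂, h₂, e₂⟩ := hg.exists_le hp
  refine ⟨C₁ + C₂, max k₁ k₂, add_nonneg h₁ h₂, fun x hx => (norm_add_le _ _).trans ?_⟩
  rw [add_mul]
  exact add_le_add (e₁ _ (le_max_left _ _) x hx) (e₂ _ (le_max_right _ _) x hx)

theorem PG.mul (hp : ∀ x ∈ s, 0 ≤ p x) (hf : PG s p f) (hg : PG s p g) :
    PG s p (fun x => f x * g x) := by
  obtain ⟨C₁, k₁, h₁, e₁⟩ := hf
  obtain ⟨C₂, k₂, h₂, e₂⟩ := hg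
  refine ⟨C₁ * C₂, k₁ + k₂, mul_nonneg h₁ h₂, fun x hx => ?_⟩
  rw [norm_mul]
  have h0 := hp x hx
  calc _ ≤ (C₁ * (1 + p x) ^ k₁) * (C₂ * (1 + p x) ^ k₂) :=
        mul_le_mul (e₁ x hx) (e₂ x hx) (norm_nonneg _) (by positivity)
    _ = _ := by rw [pow_add]; ring

theorem PG.neg (hf : PG s p f) : PG s p (fun x => -f x) :=
  hf.of_le fun x _ => by rw [norm_neg]

theorem PG.conj (hf : PG s p f) : PG s p (fun x => conj (f x)) :=
  hf.of_le fun x _ => by rw [Complex.norm_conj]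

theorem PG.sum {ι : Type*} (hp : ∀ x ∈ s, 0 ≤ p x) (t : Finset ι) {f : ι → X → ℂ}
    (hf : ∀ i ∈ t, PG s p (f i)) : PG s p (fun x => ∑ i ∈ t, f i x) := by
  classical
  induction t using Finset.induction_on with
  | empty => simpa using PG.const (s := s) (p := p) (0 : ℂ)
  | insert a t ha ih =>
    have h1 := (hf a (Finset.mem_insert_self _ _)).add hp
      (ih fun i hi => hf i (Finset.mem_insert_of_mem hi))
    exact h1.congr fun x _ => Finset.sum_insert ha

theorem PG.prod {ι : Type*} (hp : ∀ x ∈ s, 0 ≤ p x) (t : Finset ι) {f : ι → X → ℂ}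
    (hf : ∀ i ∈ t, PG s p (f i)) : PG s p (fun x => ∏ i ∈ t, f i x) := by
  classical
  induction t using Finset.induction_on with
  | empty => simpa using PG.const (s := s) (p := p) (1 : ℂ)
  | insert a t ha ih =>
    have h1 := (hf a (Finset.mem_insert_self _ _)).mul hp
      (ih fun i hi => hf i (Finset.mem_insert_of_mem hi))
    exact h1.congr fun x _ => Finset.prod_insert ha

theorem PG.pow (hp : ∀ x ∈ s, 0 ≤ p x) (hf : PG s p f) (m : ℕ) : PG s p (fun x => f x ^ m) := by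
  have h := PG.prod hp (Finset.range m) (f := fun _ => f) fun _ _ => hf
  exact h.congr fun x _ => by simp

theorem PG.mono {t : Set X} {p' : X → ℝ} (hf : PG s p f) (hp : ∀ x ∈ t, 0 ≤ p x) (hst : t ⊆ s)
    (hpp : ∀ x ∈ t, p x ≤ p' x) : PG t p' f := by
  obtain ⟨C, k, hC, h⟩ := hf
  refine ⟨C, k, hC, fun x hx => (h x (hst hx)).trans ?_⟩
  have := hp x hx
  have := hpp x hx
  exact mul_le_mul_of_nonneg_left (pow_le_pow_left₀ (by linarith) (by linarith) k) hC

end PG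

/-! ### Holomorphic functions with derivatives of polynomial growth -/

variable {n : ℕ} {s : Set (Fin n → ℂ)} {p : (Fin n → ℂ) → ℝ} {f g : (Fin n → ℂ) → ℂ}

/-- `f` is holomorphic on `s` and `f` and its first derivatives are of polynomial growth. -/
structure HG (s : Set (Fin n → ℂ)) (p : (Fin n → ℂ) → ℝ) (f : (Fin n → ℂ) → ℂ) : Prop where
  diff : DifferentiableOn ℂ f s
  gr : PG s p f
  dgr : ∀ j, PG s p (dz j f)

theorem HG.congr (hs : IsOpen s) (h : HG s p f) (hfg : ∀ x ∈ s, g x = f x) : HG s p g :=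
  ⟨h.diff.congr hfg, h.gr.congr hfg, fun j => (h.dgr j).congr fun x hx => by
    refine dz_congr ?_
    filter_upwards [hs.mem_nhds hx] with y hy
    exact hfg y hy⟩

theorem HG.const (c : ℂ) : HG s p (fun _ => c) :=
  ⟨differentiableOn_const _, PG.const c, fun j => (PG.const 0).congr fun x _ => dz_const c⟩

theorem HG.dAt (hs : IsOpen s) (h : HG s p f) {z : Fin n → ℂ} (hz : z ∈ s) :
    DifferentiableAt ℝ f z :=
  ((h.diff z hz).differentiableAt (hs.mem_nhds hz)).restrictScalars ℝ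

theorem HG.add (hs : IsOpen s) (hp : ∀ x ∈ s, 0 ≤ p x) (hf : HG s p f) (hg : HG s p g) :
    HG s p (fun x => f x + g x) :=
  ⟨hf.diff.add hg.diff, hf.gr.add hp hg.gr, fun j => ((hf.dgr j).add hp (hg.dgr j)).congr
    fun x hx => dz_add (hf.dAt hs hx) (hg.dAt hs hx)⟩

theorem HG.mul (hs : IsOpen s) (hp : ∀ x ∈ s, 0 ≤ p x) (hf : HG s p f) (hg : HG s p g) :
    HG s p (fun x => f x * g x) :=
  ⟨hf.diff.mul hg.diff, hf.gr.mul hp hg.gr, fun j =>
    (((hf.dgr j).mul hp hg.gr).add hp (hf.gr.mul hp (hg.dgr j))).congr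
    fun x hx => dz_mul (hf.dAt hs hx) (hg.dAt hs hx)⟩

theorem HG.sum {ι : Type*} (hs : IsOpen s) (hp : ∀ x ∈ s, 0 ≤ p x) (t : Finset ι)
    {f : ι → (Fin n → ℂ) → ℂ} (hf : ∀ i ∈ t, HG s p (f i)) : HG s p (fun x => ∑ i ∈ t, f i x) := by
  classical
  induction t using Finset.induction_on with
  | empty => simpa using HG.const (s := s) (p := p) (0 : ℂ)
  | insert a t ha ih =>
    have h1 := (hf a (Finset.mem_insert_self _ _)).add hs hp
      (ih fun i hi => hf i (Finset.mem_insert_of_mem hi))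
    exact h1.congr hs fun x _ => Finset.sum_insert ha

theorem HG.prod {ι : Type*} (hs : IsOpen s) (hp : ∀ x ∈ s, 0 ≤ p x) (t : Finset ι)
    {f : ι → (Fin n → ℂ) → ℂ} (hf : ∀ i ∈ t, HG s p (f i)) : HG s p (fun x => ∏ i ∈ t, f i x) := by
  classical
  induction t using Finset.induction_on with
  | empty => simpa using HG.const (s := s) (p := p) (1 : ℂ)
  | insert a t ha ih =>
    have h1 := (hf a (Finset.mem_insert_self _ _)).mul hs hp
      (ih fun i hi => hf i (Finset.mem_insert_of_mem hi))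
    exact h1.congr hs fun x _ => Finset.prod_insert ha

theorem HG.pow (hs : IsOpen s) (hp : ∀ x ∈ s, 0 ≤ p x) (hf : HG s p f) (m : ℕ) :
    HG s p (fun x => f x ^ m) := by
  have h := HG.prod hs hp (Finset.range m) (f := fun _ => f) fun _ _ => hf
  exact h.congr hs fun x _ => by simp

/-- the determinant of a matrix of functions -/
theorem HG.det {ι : Type*} [Fintype ι] [DecidableEq ι] (hs : IsOpen s) (hp : ∀ x ∈ s, 0 ≤ p x)
    {A : (Fin n → ℂ) → Matrix ι ι ℂ} (hA : ∀ i j, HG s p (fun z => A z i j)) :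
    HG s p (fun z => (A z).det) := by
  have h1 : HG s p (fun z => ∑ σ : Equiv.Perm ι,
      ((Equiv.Perm.sign σ : ℤ) : ℂ) * ∏ i, A z (σ i) i) :=
    HG.sum hs hp _ fun σ _ => (HG.const _).mul hs hp (HG.prod hs hp _ fun i _ => hA _ _)
  exact h1.congr hs fun z _ => Matrix.det_apply' _

end Vale.Agent.P298.H755
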