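import Vale.Agent.P298.H755.Link

/-!
P298, block OT-B (helper755): integrals over the root sheets and the root-sum integrals `nu`.
-/

set_option linter.all false

open Filter Topology Metric MeasureTheory Set Vale.Agent.P298 Vale.Agent.P298.H379
open Vale.Agent.P300.L2
open scoped ENNReal NNReal ComplexConjugate Polynomial

namespace Vale.Agent.P298.H755

/-! ### Change of coordinates -/

theorem lintegral_fin2 (g : (Fin 2 → ℂ) → ℝ≥0∞) : ∫⁻ x, g x = ∫⁻ p : ℂ × ℂ, g ![p.1, p.2] := by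
  have hp := (volume_preserving_finTwoArrow ℂ).symm _
  rw [← hp.lintegral_comp_emb (MeasurableEquiv.measurableEmbedding _)]
  rfl

theorem piFin_symm (q : ℂ × (Fin 2 → ℂ)) :
    (MeasurableEquiv.piFinSuccAbove (fun _ : Fin 3 => ℂ) 2).symm q = ![q.2 0, q.2 1, q.1] := by
  rw [MeasurableEquiv.symm_apply_eq]
  ext i
  · rfl
  · fin_cases i <;> rfl

theorem insertNth_eq (τ : ℂ) (x : Fin 2 → ℂ) :
    (Fin.insertNth 2 τ x : Fin 3 → ℂ) = ![x 0, x 1, τ] := by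
  funext i
  fin_cases i <;> rfl

theorem lintegral_fin3 {g : (Fin 3 → ℂ) → ℝ≥0∞} (hg : AEMeasurable g) :
    ∫⁻ y, g y = ∫⁻ τ : ℂ, ∫⁻ p : ℂ × ℂ, g ![p.1, p.2, τ] := by
  have hp := volume_preserving_piFinSuccAbove (fun _ : Fin 3 => ℂ) 2
  have h2 : ∫⁻ y, g y = ∫⁻ q : ℂ × (Fin 2 → ℂ), g ![q.2 0, q.2 1, q.1] := by
    rw [← (hp.symm _).lintegral_comp_emb (MeasurableEquiv.measurableEmbedding _)]
    simp only [piFin_symm]
  have h3 : AEMeasurable (fun q : ℂ × (Fin 2 → ℂ) => g ![q.2 0, q.2 1, q.1]) := by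
    have := hg.comp_quasiMeasurePreserving (hp.symm _).quasiMeasurePreserving
    refine this.congr (Eventually.of_forall fun q => ?_)
    simp only [Function.comp_apply, piFin_symm]
  rw [h2, Measure.volume_eq_prod, lintegral_prod _ h3]
  refine lintegral_congr fun τ => ?_
  rw [lintegral_fin2]
  rfl

theorem lintegral_fin3_on {T : Set ℂ} (hT : MeasurableSet T) {g : (Fin 3 → ℂ) → ℝ≥0∞}
    (hg : AEMeasurable g (volume.restrict {y | y 2 ∈ T})) :
    ∫⁻ y in {y | y 2 ∈ T}, g y = ∫⁻ τ in T, ∫⁻ p : ℂ × ℂ, g ![p.1, p.2, τ] := by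
  classical
  have hA : MeasurableSet {y : Fin 3 → ℂ | y 2 ∈ T} := measurable_pi_apply 2 hT
  rw [← lintegral_indicator hA, ← lintegral_indicator hT,
    lintegral_fin3 ((aemeasurable_indicator_iff hA).2 hg)]
  refine lintegral_congr fun τ => ?_
  by_cases hτ : τ ∈ T
  · rw [indicator_of_mem hτ]
    refine lintegral_congr fun p => ?_
    rw [indicator_of_mem]
    exact hτ
  · rw [indicator_of_notMem hτ]
    rw [lintegral_eq_zero_of_ae_eq_zero]
    refine Eventually.of_forall fun p => ?_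
    simp only [Pi.zero_apply]
    rw [indicator_of_notMem]
    exact hτ

/-- the zero set of an entire function is a null set -/
theorem entire_null {n : ℕ} {f : (Fin n → ℂ) → ℂ} (hf : Differentiable ℂ f) {a : Fin n → ℂ}
    (ha : f a ≠ 0) : volume {x | f x = 0} = 0 := by
  have h1 : AnalyticOnNhd ℂ f univ :=
    Vale.Agent.P268.analyticOnNhd_of_differentiableOn isOpen_univ hf.differentiableOn
  have h2 : ∀ p, ∃ᶠ z in 𝓝 p, f z ≠ 0 := by
    intro p hcon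
    have h2 : f =ᶠ[𝓝 p] 0 := by
      filter_upwards [hcon] with z hz
      simpa using hz
    exact ha (h1.eqOn_zero_of_preconnected_of_eventuallyEq_zero isPreconnected_univ
      (mem_univ p) h2 (mem_univ a))
  apply measure_null_of_locally_null
  intro p hp
  obtain ⟨δ, hδ, hsub, h0⟩ := Vale.Agent.P271.LOCE.zero_null volume isOpen_univ
    hf.differentiableOn (mem_univ p) (h2 p)
  refine ⟨{w ∈ ball p δ | f w = 0}, ?_, h0⟩
  rw [mem_nhdsWithin]
  exact ⟨ball p δ, isOpen_ball, mem_ball_self hδ, fun y hy => ⟨hy.1, hy.2⟩⟩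

variable {d e : ℕ} {r : ℝ}

namespace Fam

variable (F : Fam d r)

theorem null_compl : volume (cyl 2 r \ F.V) = 0 := by
  have h1 := H98.dsc_null (F.hc 2) F.hd F.holo (r := r) (by
    rw [← F.V_eq_Vr]
    obtain ⟨p, hp⟩ := F.exists_mem_V
    exact ⟨_, hp⟩)
  rw [← F.V_eq_Vr] at h1
  have h2 : H98.Ud r = cyl 2 r := by
    ext y
    simp [H98.Ud, cyl]
  rwa [h2] at h1

/-- almost every point of the slice `τ = 0` is in `V` -/
theorem ae_slice : ∀ᵐ x : Fin 2 → ℂ, (Fin.insertNth 2 0 x : Fin 3 → ℂ) ∈ F.V := by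
  obtain ⟨p, hp⟩ := F.exists_mem_V
  have h0 : ∀ x : Fin 2 → ℂ, (![x 0, x 1, 0] : Fin 3 → ℂ) ∈ cyl 2 r := by
    intro x
    show (![x 0, x 1, 0] : Fin 3 → ℂ) 2 ∈ ball (0 : ℂ) r
    simpa using F.hr
  have hm : Differentiable ℂ (fun x : Fin 2 → ℂ => (![x 0, x 1, 0] : Fin 3 → ℂ)) := by
    rw [differentiable_pi]
    intro i
    fin_cases i
    · exact diff_coord 0
    · exact diff_coord 1
    · exact differentiable_const _
  have hd : Differentiable ℂ (fun x : Fin 2 → ℂ => F.D ![x 0, x 1, 0]) := by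
    intro x
    have h1 : DifferentiableAt ℂ F.D ![x 0, x 1, 0] :=
      diffAt (isOpen_cyl 2 r) F.HG_D.diff (h0 x)
    exact DifferentiableAt.comp (g := F.D) (f := fun x : Fin 2 → ℂ => (![x 0, x 1, 0] : Fin 3 → ℂ))
      x h1 (hm x)
  have h1 : volume {x : Fin 2 → ℂ | F.D ![x 0, x 1, 0] = 0} = 0 :=
    entire_null hd (a := ![p.1, p.2]) hp.2
  rw [measure_eq_zero_iff_ae_notMem] at h1
  filter_upwards [h1] with x hx
  rw [insertNth_eq]
  exact ⟨h0 x, hx⟩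

theorem ae_slice' : ∀ᵐ p : ℂ × ℂ, (![p.1, p.2, 0] : Fin 3 → ℂ) ∈ F.V := by
  have h1 := F.ae_slice
  have hp := (volume_preserving_finTwoArrow ℂ).symm (MeasurableEquiv.finTwoArrow (α := ℂ))
  have h2 := hp.quasiMeasurePreserving.ae h1
  filter_upwards [h2] with p hp
  rw [insertNth_eq] at hp
  exact hp

/-! ### Integrals over the sheets -/

theorem aemeasurable_rt : AEMeasurable (fun q : (Fin 3 → ℂ) × ℕ => (q.1, F.rt q)) F.S.μ := by
  have h1 : AEMeasurable F.rt F.S.μ :=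
    (Sheets.aestronglyMeasurable_of_CD (F.holo_rt.CD 0)).aemeasurable
  exact measurable_fst.aemeasurable.prodMk h1

/-- integral over the sheets = integral over `V` of the sum over the roots -/
theorem lintegral_rt {Ψ : (Fin 3 → ℂ) × ℂ → ℝ≥0∞} (hΨ : Measurable Ψ) :
    ∫⁻ q, Ψ (q.1, F.rt q) ∂F.S.μ = ∫⁻ y in F.V, ∑ w ∈ F.rts y, Ψ (y, w) := by
  refine (Sheets.lintegral_μ' (hΨ.comp_aemeasurable F.aemeasurable_rt)).trans ?_
  refine setLIntegral_congr_fun F.isOpen_V.measurableSet fun y hy => ?_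
  exact F.sum_rt hy (fun w => Ψ (y, w))

/-- the same for a function measurable along the sheets -/
theorem lintegral_lbl {X : (Fin 3 → ℂ) × ℕ → ℝ≥0∞} (hX : AEMeasurable X F.S.μ) :
    ∫⁻ q, X q ∂F.S.μ = ∫⁻ y in F.V, ∑ w ∈ F.rts y, X (y, F.lbl y w) := by
  rw [Sheets.lintegral_μ' hX]
  refine setLIntegral_congr_fun F.isOpen_V.measurableSet fun y hy => ?_
  show _ = ∑ w ∈ F.rts y, X (y, F.lbl y w)
  rw [← F.sum_rt hy (fun w => X (y, F.lbl y w))]
  refine Finset.sum_congr rfl fun i hi => ?_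
  rw [F.lbl_rt hy (Finset.mem_range.1 hi)]

theorem aemeasurable_sum_rts {Ψ : (Fin 3 → ℂ) × ℂ → ℝ≥0∞} (hΨ : Measurable Ψ) :
    AEMeasurable (fun y => ∑ w ∈ F.rts y, Ψ (y, w)) (volume.restrict F.V) := by
  have h0 := hΨ.comp_aemeasurable F.aemeasurable_rt
  have h1 : AEMeasurable (fun z => ∑ w ∈ F.S.fib z, h0.mk _ (z, w)) (volume.restrict F.S.V) :=
    Sheets.sm_meas_sum h0.measurable_mk
  refine h1.congr ?_
  have h2 := Sheets.ae_μ_iff.1 h0.ae_eq_mk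
  have h3 : ∀ᵐ z ∂(volume.restrict F.S.V), z ∈ F.V := ae_restrict_mem F.isOpen_V.measurableSet
  filter_upwards [h2, h3] with z hz hzV
  rw [← F.sum_rt hzV (fun w => Ψ (z, w))]
  exact Finset.sum_congr rfl fun w hw => (hz w hw).symm

/-- the root sum at a good point -/
theorem rootSum_eq {y : Fin 3 → ℂ} (hy : F.D y ≠ 0) (φ : (Fin 3 → ℂ) → ℝ≥0∞) :
    rootSum (F.G (y 2)) 0 φ (y 0, y 1) =
      ∑ w ∈ F.rts y, φ (pt (y 0, y 1) w) / ‖pd 2 (F.G (y 2)) (pt (y 0, y 1) w)‖ₑ ^ 2 := by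
  have h1 : Rts (F.G (y 2)) 0 (y 0, y 1) = ↑(F.rts y) := by
    ext w
    rw [Finset.mem_coe, F.mem_rts', Rts, mem_ofPred_eq]
    refine and_iff_left_of_imp fun hw => ?_
    rw [← F.eval_derivative]
    refine F.D_ne_zero_iff.1 hy w ?_
    rw [F.eval_poly]
    exact hw
  unfold rootSum
  rw [h1]
  exact Finset.tsum_subtype (F.rts y)
    (fun w => φ (pt (y 0, y 1) w) / ‖pd 2 (F.G (y 2)) (pt (y 0, y 1) w)‖ₑ ^ 2)

/-- the integrand on the product which gives `nu` -/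
noncomputable def Psi (φ : ℂ → (Fin 3 → ℂ) → ℝ≥0∞) (q : (Fin 3 → ℂ) × ℂ) : ℝ≥0∞ :=
  φ (q.1 2) (pt (q.1 0, q.1 1) q.2) / ‖(Polynomial.derivative (F.poly q.1)).eval q.2‖ₑ ^ 2

theorem measurable_eval_derivative : Measurable
    (fun q : (Fin 3 → ℂ) × ℂ => (cyl 2 r ×ˢ univ).indicator
      (fun q : (Fin 3 → ℂ) × ℂ => (Polynomial.derivative (F.poly q.1)).eval q.2) q) := by
  have hc : ContinuousOn (fun q : (Fin 3 → ℂ) × ℂ =>
      (Polynomial.derivative (F.poly q.1)).eval q.2) (cyl 2 r ×ˢ univ) := by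
    have h1 : (fun q : (Fin 3 → ℂ) × ℂ => (Polynomial.derivative (F.poly q.1)).eval q.2) =
        fun q => ∑ m ∈ Finset.range d, (Polynomial.derivative (F.poly q.1)).coeff m * q.2 ^ m := by
      funext q
      refine Polynomial.eval_eq_sum_range' ?_ _
      have := F.natDegree_derivative_le q.1
      have := F.hd
      omega
    rw [h1]
    refine continuousOn_finsetSum _ fun m _ => ContinuousOn.mul ?_ (by fun_prop)
    exact (F.HG_coeff' m).diff.continuousOn.comp continuousOn_fst fun q hq => hq.1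
  classical
  have h2 : Measurable ((cyl 2 r ×ˢ univ : Set ((Fin 3 → ℂ) × ℂ)).piecewise
      (fun q : (Fin 3 → ℂ) × ℂ => (Polynomial.derivative (F.poly q.1)).eval q.2) 0) :=
    hc.measurable_piecewise continuousOn_const (((isOpen_cyl 2 r).prod isOpen_univ).measurableSet)
  rw [piecewise_eq_indicator] at h2
  exact h2

theorem measurable_pt : Measurable (fun q : (Fin 3 → ℂ) × ℂ => pt (q.1 0, q.1 1) q.2) := by
  rw [measurable_pi_iff]
  intro i
  have h0 : Measurable (fun q : (Fin 3 → ℂ) × ℂ => q.1 0) :=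
    (measurable_pi_apply (X := fun _ : Fin 3 => ℂ) 0).comp measurable_fst
  have h1 : Measurable (fun q : (Fin 3 → ℂ) × ℂ => q.1 1) :=
    (measurable_pi_apply (X := fun _ : Fin 3 => ℂ) 1).comp measurable_fst
  fin_cases i
  · exact h0
  · exact h1
  · exact measurable_snd

open Classical in
/-- the integrand which gives `nu`, extended by `0` -/
noncomputable def Psi' (φ : ℂ → (Fin 3 → ℂ) → ℝ≥0∞) (q : (Fin 3 → ℂ) × ℂ) : ℝ≥0∞ :=
  φ (q.1 2) (pt (q.1 0, q.1 1) q.2) / ‖(cyl 2 r ×ˢ univ).indicator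
      (fun q : (Fin 3 → ℂ) × ℂ => (Polynomial.derivative (F.poly q.1)).eval q.2) q‖ₑ ^ 2

theorem measurable_Psi' {φ : ℂ → (Fin 3 → ℂ) → ℝ≥0∞} (hφ : Measurable (Function.uncurry φ)) :
    Measurable (F.Psi' φ) := by
  unfold Psi'
  refine Measurable.div ?_ (F.measurable_eval_derivative.enorm.pow_const 2)
  exact hφ.comp (((measurable_pi_apply 2).comp measurable_fst).prodMk measurable_pt)

theorem Psi'_eq {φ : ℂ → (Fin 3 → ℂ) → ℝ≥0∞} {y : Fin 3 → ℂ} (hy : y ∈ cyl 2 r) (w : ℂ) :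
    F.Psi' φ (y, w) = φ (y 2) (pt (y 0, y 1) w) / ‖pd 2 (F.G (y 2)) (pt (y 0, y 1) w)‖ₑ ^ 2 := by
  unfold Psi'
  rw [indicator_of_mem (show (y, w) ∈ cyl 2 r ×ˢ univ from ⟨hy, mem_univ _⟩), F.eval_derivative]

theorem aemeasurable_rootSum {φ : ℂ → (Fin 3 → ℂ) → ℝ≥0∞} (hφ : Measurable (Function.uncurry φ)) :
    AEMeasurable (fun y : Fin 3 → ℂ => rootSum (F.G (y 2)) 0 (φ (y 2)) (y 0, y 1))
      (volume.restrict (cyl 2 r)) := by
  have h1 : volume.restrict (cyl 2 r) = volume.restrict F.V :=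
    Measure.restrict_congr_set (ae_eq_set.2 ⟨F.null_compl, by
      rw [diff_eq_empty.2 fun y hy => hy.1]
      exact measure_empty⟩)
  rw [h1]
  refine (F.aemeasurable_sum_rts (F.measurable_Psi' hφ)).congr ?_
  filter_upwards [ae_restrict_mem F.isOpen_V.measurableSet] with y hy
  rw [F.rootSum_eq hy.2]
  exact Finset.sum_congr rfl fun w _ => F.Psi'_eq hy.1 w

/-- **The integral over the sheets and the root-sum integrals `nu`.** -/
theorem lintegral_nu {T : Set ℂ} (hT : MeasurableSet T) (hTr : T ⊆ ball 0 r)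
    {φ : ℂ → (Fin 3 → ℂ) → ℝ≥0∞} (hφ : Measurable (Function.uncurry φ)) :
    ∫⁻ τ in T, nu (F.G τ) 0 (φ τ) = ∫⁻ q in {q : (Fin 3 → ℂ) × ℕ | q.1 2 ∈ T},
      φ (q.1 2) (pt (q.1 0, q.1 1) (F.rt q)) / ‖F.dG q‖ₑ ^ 2 ∂F.S.μ := by
  classical
  have hA : MeasurableSet {y : Fin 3 → ℂ | y 2 ∈ T} := measurable_pi_apply 2 hT
  have hAc : {y : Fin 3 → ℂ | y 2 ∈ T} ⊆ cyl 2 r := fun y hy => hTr hy
  have hg := F.aemeasurable_rootSum hφ
  have h1 : ∫⁻ τ in T, nu (F.G τ) 0 (φ τ) =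
      ∫⁻ y in {y : Fin 3 → ℂ | y 2 ∈ T}, rootSum (F.G (y 2)) 0 (φ (y 2)) (y 0, y 1) := by
    rw [lintegral_fin3_on hT (hg.mono_measure (Measure.restrict_mono hAc le_rfl))]
    rfl
  have hT' : MeasurableSet {τ : ℂ | τ ∈ T} := hT
  -- the right hand side
  have hB : MeasurableSet {q : (Fin 3 → ℂ) × ℕ | q.1 2 ∈ T} := measurable_fst hA
  have h2 : ∫⁻ q in {q : (Fin 3 → ℂ) × ℕ | q.1 2 ∈ T},
      φ (q.1 2) (pt (q.1 0, q.1 1) (F.rt q)) / ‖F.dG q‖ₑ ^ 2 ∂F.S.μ =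
      ∫⁻ q, (({y : Fin 3 → ℂ | y 2 ∈ T} ×ˢ univ).indicator (F.Psi' φ)) (q.1, F.rt q) ∂F.S.μ := by
    rw [← lintegral_indicator hB]
    refine lintegral_congr_ae ?_
    filter_upwards [Sheets.ae_mem_M (S := F.S)] with q hq
    by_cases hqT : q.1 2 ∈ T
    · rw [indicator_of_mem (show q ∈ {q : (Fin 3 → ℂ) × ℕ | q.1 2 ∈ T} from hqT),
        indicator_of_mem (show (q.1, F.rt q) ∈ {y : Fin 3 → ℂ | y 2 ∈ T} ×ˢ univ from
          ⟨hqT, mem_univ _⟩), F.Psi'_eq (F.mem_M.1 hq).1.1]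
      rfl
    · rw [indicator_of_notMem (show q ∉ {q : (Fin 3 → ℂ) × ℕ | q.1 2 ∈ T} from hqT),
        indicator_of_notMem (show (q.1, F.rt q) ∉ {y : Fin 3 → ℂ | y 2 ∈ T} ×ˢ univ from
          fun h => hqT h.1)]
  rw [h1, h2, F.lintegral_rt ((F.measurable_Psi' hφ).indicator (hA.prod MeasurableSet.univ))]
  have h3 : volume.restrict {y : Fin 3 → ℂ | y 2 ∈ T} =
      volume.restrict (F.V ∩ {y : Fin 3 → ℂ | y 2 ∈ T}) :=
    Measure.restrict_congr_set (ae_eq_set.2 ⟨by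
      refine measure_mono_null ?_ F.null_compl
      rintro y ⟨hy1, hy2⟩
      exact ⟨hAc hy1, fun h => hy2 ⟨h, hy1⟩⟩, by
      rw [diff_eq_empty.2 fun y hy => hy.2]
      exact measure_empty⟩)
  rw [h3, inter_comm, ← Measure.restrict_restrict hA, ← lintegral_indicator hA]
  refine setLIntegral_congr_fun F.isOpen_V.measurableSet fun y hy => ?_
  by_cases hyT : y 2 ∈ T
  · rw [indicator_of_mem (show y ∈ {y : Fin 3 → ℂ | y 2 ∈ T} from hyT), F.rootSum_eq hy.2]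
    refine Finset.sum_congr rfl fun w _ => ?_
    rw [indicator_of_mem (show (y, w) ∈ {y : Fin 3 → ℂ | y 2 ∈ T} ×ˢ univ from
      ⟨hyT, mem_univ _⟩), F.Psi'_eq hy.1]
  · rw [indicator_of_notMem (show y ∉ {y : Fin 3 → ℂ | y 2 ∈ T} from hyT)]
    symm
    refine Finset.sum_eq_zero fun w _ => ?_
    rw [indicator_of_notMem (show (y, w) ∉ {y : Fin 3 → ℂ | y 2 ∈ T} ×ˢ univ from
      fun h => hyT h.1)]

/-- the whole disc -/
theorem lintegral_nu_ball {φ : ℂ → (Fin 3 → ℂ) → ℝ≥0∞} (hφ : Measurable (Function.uncurry φ)) :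
    ∫⁻ τ in ball (0 : ℂ) r, nu (F.G τ) 0 (φ τ) =
      ∫⁻ q, φ (q.1 2) (pt (q.1 0, q.1 1) (F.rt q)) / ‖F.dG q‖ₑ ^ 2 ∂F.S.μ := by
  rw [F.lintegral_nu measurableSet_ball le_rfl hφ]
  have h1 : F.S.μ.restrict {q : (Fin 3 → ℂ) × ℕ | q.1 2 ∈ ball (0 : ℂ) r} = F.S.μ := by
    refine Measure.restrict_eq_self_of_ae_mem ?_
    filter_upwards [Sheets.ae_mem_M (S := F.S)] with q hq
    exact (F.mem_M.1 hq).1.1
  rw [h1]

/-- **The slice** `τ = 0`. -/
theorem nu_slice (φ : (Fin 3 → ℂ) → ℝ≥0∞) :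
    nu (F.G 0) 0 φ = ∫⁻ x : Fin 2 → ℂ, F.V.indicator (fun y => ∑ i ∈ F.S.fib y,
      φ (pt (y 0, y 1) (F.rt (y, i))) / ‖F.dG (y, i)‖ₑ ^ 2) (Fin.insertNth 2 0 x) := by
  classical
  rw [lintegral_fin2]
  unfold nu
  refine lintegral_congr_ae ?_
  filter_upwards [F.ae_slice'] with p hp
  have h1 : (Fin.insertNth 2 0 ![p.1, p.2] : Fin 3 → ℂ) = ![p.1, p.2, 0] := by
    rw [insertNth_eq]
    rfl
  rw [h1, indicator_of_mem hp]
  have h2 := F.rootSum_eq (y := ![p.1, p.2, 0]) hp.2 φ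
  have h3 : (![p.1, p.2, 0] : Fin 3 → ℂ) 2 = 0 := rfl
  have h4 : (((![p.1, p.2, 0] : Fin 3 → ℂ) 0, (![p.1, p.2, 0] : Fin 3 → ℂ) 1) : ℂ × ℂ) = p := rfl
  rw [h3, h4] at h2
  rw [h2, ← F.sum_rt hp (fun w => φ (pt p w) / ‖pd 2 (F.G 0) (pt p w)‖ₑ ^ 2)]
  rfl

end Fam

end Vale.Agent.P298.H755
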