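import Vale.Agent.P298.H755.Disc
import Vale.Agent.P300.H14.ECov
import Vale.Agent.P300.H435.L2.Meas

/-!
P298, block OT-B (helper755): the local holomorphic roots and the sheets.
-/

set_option linter.all false

open Filter Topology Metric MeasureTheory Set Vale.Agent.P298 Vale.Agent.P298.H379
open Vale.Agent.P300.L2
open scoped ENNReal NNReal ComplexConjugate Polynomial

namespace Vale.Agent.P298.H755

variable {d : ℕ} {r : ℝ}

namespace Fam

variable (F : Fam d r)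

/-- the value of the polynomial -/
noncomputable def val (q : (Fin 3 → ℂ) × ℂ) : ℂ := (F.poly q.1).eval q.2

theorem val_eq (q : (Fin 3 → ℂ) × ℂ) : F.val q = F.c 2 * q.2 ^ d +
    (F.c 0 * q.1 0 ^ d + F.c 1 * q.1 1 ^ d + ∑ α : Mon d (d - 1),
      F.b (q.1 2) α * (q.1 0 ^ (α.1 0 : ℕ) * q.1 1 ^ (α.1 1 : ℕ)) * q.2 ^ (α.1 2 : ℕ)) := by
  simp [val, poly, Polynomial.eval_finsetSum]

theorem contDiffOn_b (α : Mon d (d - 1)) (n : ℕ) :
    ContDiffOn ℂ n (fun τ => F.b τ α) (ball (0 : ℂ) r) := by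
  have h1 : DifferentiableOn ℂ (fun τ => F.b τ α) (ball (0 : ℂ) r) := by
    have := F.holo
    rw [differentiableOn_pi] at this
    exact this α
  exact h1.contDiffOn isOpen_ball

theorem contDiffOn_val (n : ℕ) : ContDiffOn ℂ n F.val (cyl 2 r ×ˢ univ) := by
  have hb : ∀ α : Mon d (d - 1), ContDiffOn ℂ n
      (fun q : (Fin 3 → ℂ) × ℂ => F.b (q.1 2) α) (cyl 2 r ×ˢ univ) := by
    intro α
    refine (F.contDiffOn_b α n).comp (t := ball (0 : ℂ) r) ?_ ?_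
    · fun_prop
    · intro q hq
      exact hq.1
  have h1 : F.val = fun q : (Fin 3 → ℂ) × ℂ => F.c 2 * q.2 ^ d +
    (F.c 0 * q.1 0 ^ d + F.c 1 * q.1 1 ^ d + ∑ α : Mon d (d - 1),
      F.b (q.1 2) α * (q.1 0 ^ (α.1 0 : ℕ) * q.1 1 ^ (α.1 1 : ℕ)) * q.2 ^ (α.1 2 : ℕ)) := by
    funext q
    exact F.val_eq q
  rw [h1]
  refine ContDiffOn.add (by fun_prop) (ContDiffOn.add (by fun_prop) ?_)
  refine ContDiffOn.sum fun α _ => ?_
  exact ((hb α).mul (by fun_prop)).mul (by fun_prop)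

theorem contDiffAt_val (n : ℕ) {q : (Fin 3 → ℂ) × ℂ} (hq : q.1 ∈ cyl 2 r) :
    ContDiffAt ℂ n F.val q :=
  (F.contDiffOn_val n).contDiffAt (((isOpen_cyl 2 r).prod isOpen_univ).mem_nhds ⟨hq, mem_univ _⟩)

theorem fderiv_val_inr {q : (Fin 3 → ℂ) × ℂ} (hq : q.1 ∈ cyl 2 r) (t : ℂ) :
    fderiv ℂ F.val q (0, t) = t * (Polynomial.derivative (F.poly q.1)).eval q.2 := by
  have h1 := ((F.contDiffAt_val 1 hq).differentiableAt (by norm_num)).hasFDerivAt
  have h2 : HasDerivAt (fun w : ℂ => ((q.1, w) : (Fin 3 → ℂ) × ℂ)) (0, 1) q.2 :=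
    (hasDerivAt_const q.2 q.1).prodMk (hasDerivAt_id' q.2)
  have h3 : HasDerivAt (fun w : ℂ => F.val (q.1, w)) (fderiv ℂ F.val q (0, 1)) q.2 := by
    have h1' : HasFDerivAt F.val (fderiv ℂ F.val q)
      ((fun w : ℂ => ((q.1, w) : (Fin 3 → ℂ) × ℂ)) q.2) := h1
    exact h1'.comp_hasDerivAt q.2 h2
  have h4 := (F.poly q.1).hasDerivAt q.2
  have h5 : fderiv ℂ F.val q (0, 1) = (Polynomial.derivative (F.poly q.1)).eval q.2 := h3.unique h4
  have h6 : ((0, t) : (Fin 3 → ℂ) × ℂ) = t • ((0, 1) : (Fin 3 → ℂ) × ℂ) := by simp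
  rw [h6, map_smul, h5, smul_eq_mul]

theorem isInvertible {q : (Fin 3 → ℂ) × ℂ} (hq : q.1 ∈ cyl 2 r)
    (h : (Polynomial.derivative (F.poly q.1)).eval q.2 ≠ 0) :
    (fderiv ℂ F.val q ∘L .inr ℂ (Fin 3 → ℂ) ℂ).IsInvertible := by
  refine ⟨ContinuousLinearEquiv.smulLeft (Units.mk0 _ h), ?_⟩
  ext
  simp only [ContinuousLinearMap.coe_comp, Function.comp_apply, ContinuousLinearMap.inr_apply]
  rw [F.fderiv_val_inr hq, one_mul]
  simp

/-- local holomorphic root -/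
theorem exists_root {z₀ : Fin 3 → ℂ} (hz₀ : z₀ ∈ cyl 2 r) {w₀ : ℂ} (hw : (F.poly z₀).eval w₀ = 0)
    (hw' : (Polynomial.derivative (F.poly z₀)).eval w₀ ≠ 0) :
    ∃ (W : Set (Fin 3 → ℂ)) (φ : (Fin 3 → ℂ) → ℂ), IsOpen W ∧ z₀ ∈ W ∧ φ z₀ = w₀ ∧
      DifferentiableOn ℂ φ W ∧ ∀ z ∈ W, (F.poly z).eval (φ z) = 0 := by
  have cdf : ContDiffAt ℂ (1 : ℕ) F.val (z₀, w₀) := F.contDiffAt_val 1 hz₀
  have hinv := F.isInvertible (q := (z₀, w₀)) hz₀ hw'
  have h1 := cdf.implicitFunction_apply_self (by norm_num) hinv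
  have h2 := cdf.eventually_apply_implicitFunction (by norm_num) hinv
  have h3 := cdf.contDiffAt_implicitFunction (by norm_num) hinv
  obtain ⟨u, hu, h4⟩ := h3.contDiffOn (m := (1 : ℕ)) le_rfl (by simp)
  simp only [Set.mem_univ, Set.insert_eq_of_mem, nhdsWithin_univ] at hu
  obtain ⟨W, hWs, hW, hzW⟩ := _root_.mem_nhds_iff.1 (inter_mem hu h2)
  refine ⟨W, cdf.implicitFunction (by norm_num) hinv, hW, hzW, h1, ?_, fun z hz => ?_⟩
  · exact (h4.differentiableOn (by norm_num)).mono fun z hz => (hWs hz).1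
  · have h5 := (hWs hz).2
    have h6 : F.val (z, cdf.implicitFunction (by norm_num) hinv z) = F.val (z₀, w₀) := h5
    have h7 : F.val (z₀, w₀) = 0 := hw
    rw [h7] at h6
    exact h6

/-- all local roots -/
theorem exists_roots {z₀ : Fin 3 → ℂ} (hz₀ : z₀ ∈ F.V) :
    ∃ (W : Set (Fin 3 → ℂ)) (s : Fin d → (Fin 3 → ℂ) → ℂ), IsOpen W ∧ z₀ ∈ W ∧ W ⊆ F.V ∧
      (∀ i, DifferentiableOn ℂ (s i) W) ∧ (∀ z ∈ W, Function.Injective fun i => s i z) ∧
      ∀ z ∈ W, F.rts z = Finset.univ.image fun i => s i z := by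
  classical
  have hcard := F.card_rts hz₀.2
  let e : Fin d ≃ F.rts z₀ := ((F.rts z₀).equivFinOfCardEq hcard).symm
  have h1 : ∀ i, ∃ (W : Set (Fin 3 → ℂ)) (φ : (Fin 3 → ℂ) → ℂ), IsOpen W ∧ z₀ ∈ W ∧
      φ z₀ = (e i : ℂ) ∧ DifferentiableOn ℂ φ W ∧ ∀ z ∈ W, (F.poly z).eval (φ z) = 0 := by
    intro i
    have hr : (F.poly z₀).eval (e i : ℂ) = 0 := F.mem_rts.1 (e i).2
    exact F.exists_root hz₀.1 hr (F.D_ne_zero_iff.1 hz₀.2 _ hr)
  choose W φ hW hzW hφ hd hroot using h1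
  have h2 : ∀ᶠ z in 𝓝 z₀, ∀ i j, i ≠ j → φ i z ≠ φ j z := by
    rw [eventually_all]
    intro i
    rw [eventually_all]
    intro j
    by_cases hij : i = j
    · exact Eventually.of_forall fun z h => absurd hij h
    · have hc1 : ContinuousAt (φ i) z₀ := (hd i).continuousOn.continuousAt ((hW i).mem_nhds (hzW i))
      have hc2 : ContinuousAt (φ j) z₀ := (hd j).continuousOn.continuousAt ((hW j).mem_nhds (hzW j))
      have h3 : φ i z₀ - φ j z₀ ≠ 0 := by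
        rw [hφ, hφ]
        exact sub_ne_zero.2 fun h => hij (e.injective (Subtype.ext h))
      filter_upwards [(hc1.sub hc2).eventually_ne h3] with y hy _ h4
      exact hy (sub_eq_zero.2 h4)
  have h3 : ∀ᶠ z in 𝓝 z₀, ∀ i, z ∈ W i := eventually_all.2 fun i => (hW i).mem_nhds (hzW i)
  obtain ⟨U, hUs, hU, hzU⟩ := _root_.mem_nhds_iff.1
    (inter_mem (inter_mem h2 h3) (F.isOpen_V.mem_nhds hz₀))
  refine ⟨U, φ, hU, hzU, fun z hz => (hUs hz).2, fun i => (hd i).mono fun z hz => (hUs hz).1.2 i,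
    ?_, ?_⟩
  · intro z hz i j hij
    by_contra hne
    exact (hUs hz).1.1 i j hne hij
  · intro z hz
    symm
    apply Finset.eq_of_subset_of_card_le
    · intro w hw
      obtain ⟨i, -, rfl⟩ := Finset.mem_image.1 hw
      exact F.mem_rts.2 (hroot i z ((hUs hz).1.2 i))
    · rw [F.card_rts (hUs hz).2.2, Finset.card_image_of_injective, Finset.card_univ,
        Fintype.card_fin]
      intro i j hij
      by_contra hne
      exact (hUs hz).1.1 i j hne hij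

/-- the total space of the cover -/
abbrev Tot : Type := {q : (Fin 3 → ℂ) × ℂ // q.1 ∈ F.V ∧ q.2 ∈ F.rts q.1}

theorem ecov_loc : ∀ z ∈ F.V, ∃ (W : Set (Fin 3 → ℂ))
    (s : Fin d → (Fin 3 → ℂ) → F.Tot), IsOpen W ∧ z ∈ W ∧
      W ⊆ F.V ∧ (∀ i, ContinuousOn (s i) W) ∧ (∀ i, ∀ y ∈ W, (fun e : F.Tot => e.1.1) (s i y) = y) ∧
      (∀ y ∈ W, Function.Injective fun i => s i y) ∧
      ∀ e, (fun e : F.Tot => e.1.1) e ∈ W → ∃ i, s i ((fun e : F.Tot => e.1.1) e) = e := by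
  classical
  intro z hz
  obtain ⟨W, s, hW, hzW, hWV, hd, hinj, hfib⟩ := F.exists_roots hz
  have hm : ∀ i, ∀ y ∈ W, (y, s i y).1 ∈ F.V ∧ (y, s i y).2 ∈ F.rts (y, s i y).1 := fun i y hy =>
    ⟨hWV hy, by show s i y ∈ F.rts y; rw [hfib y hy]; simp⟩
  refine ⟨W, fun i y => if h : y ∈ W then ⟨(y, s i y), hm i y h⟩ else ⟨(z, s i z), hm i z hzW⟩,
    hW, hzW, hWV, fun i => ?_, fun i y hy => ?_, fun y hy i j hij => ?_, fun e he => ?_⟩
  · rw [continuousOn_iff_continuous_domRestrict]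
    have h1 : ContinuousOn (fun y => (y, s i y)) W := continuousOn_id.prodMk (hd i).continuousOn
    rw [continuousOn_iff_continuous_domRestrict] at h1
    refine (h1.subtype_mk (fun y => hm i y.1 y.2)).congr fun y => ?_
    apply Subtype.ext
    simp [Set.domRestrict]
  · simp [hy]
  · simp only [hy, dif_pos] at hij
    exact hinj y hy (congrArg (fun e : F.Tot => e.1.2) hij)
  · have h1 : e.1.2 ∈ F.rts e.1.1 := e.2.2
    rw [hfib _ he, Finset.mem_image] at h1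
    obtain ⟨i, -, hi⟩ := h1
    refine ⟨i, ?_⟩
    simp only at he ⊢
    rw [dif_pos he]
    exact Subtype.ext (Prod.ext rfl hi)

/-- the covering without labels -/
noncomputable def ecov : ECov 3 d F.Tot :=
  ECov.ofSections (p := fun e => e.1.1) F.isOpen_V
    (continuous_fst.comp continuous_subtype_val) (fun e => e.2.1) F.ecov_loc

@[simp] theorem ecov_V : F.ecov.V = F.V := rfl

@[simp] theorem ecov_p (e : F.Tot) : F.ecov.p e = e.1.1 := rfl

/-- there is a point of `V` with `τ = 0` -/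
theorem exists_mem_V : ∃ p : ℂ × ℂ, ![p.1, p.2, 0] ∈ F.V := by
  obtain ⟨p, hp⟩ := F.red
  refine ⟨p, ?_, ?_⟩
  · show (![p.1, p.2, 0] : Fin 3 → ℂ) 2 ∈ ball (0 : ℂ) r
    simpa using F.hr
  · rw [D_ne_zero_iff]
    intro w hw
    rw [eval_poly] at hw
    rw [eval_derivative]
    exact hp w hw

instance nonempty_Tot : Nonempty F.Tot := by
  obtain ⟨p, hp⟩ := F.exists_mem_V
  have h1 := F.card_rts hp.2
  have h2 : (F.rts ![p.1, p.2, 0]).Nonempty := by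
    rw [← Finset.card_pos, h1]
    exact F.hd
  obtain ⟨w, hw⟩ := h2
  exact ⟨⟨(![p.1, p.2, 0], w), hp, hw⟩⟩

/-- **The root sheets**: the labels of the points over `z ∈ V` are `0, …, d - 1`. -/
noncomputable def S : Sheets 3 d := F.ecov.S

/-- the root with given label -/
noncomputable def rt (q : (Fin 3 → ℂ) × ℕ) : ℂ := (F.ecov.pt q).1.2

@[simp] theorem S_V : F.S.V = F.V := rfl

@[simp] theorem S_fib (z : Fin 3 → ℂ) : F.S.fib z = Finset.range d := rfl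

theorem mem_M {q : (Fin 3 → ℂ) × ℕ} : q ∈ F.S.M ↔ q.1 ∈ F.V ∧ q.2 < d := by
  show q.1 ∈ F.V ∧ q.2 ∈ Finset.range d ↔ _
  rw [Finset.mem_range]

theorem pt_fst {q : (Fin 3 → ℂ) × ℕ} (hq : q ∈ F.S.M) : (F.ecov.pt q).1.1 = q.1 := by
  rw [mem_M] at hq
  exact F.ecov.p_pt (z := q.1) hq.1 hq.2

theorem rt_mem {q : (Fin 3 → ℂ) × ℕ} (hq : q ∈ F.S.M) : F.rt q ∈ F.rts q.1 := by
  have h1 := (F.ecov.pt q).2.2
  rw [F.pt_fst hq] at h1
  exact h1

theorem rt_root {q : (Fin 3 → ℂ) × ℕ} (hq : q ∈ F.S.M) :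
    F.G (q.1 2) (pt (q.1 0, q.1 1) (F.rt q)) = 0 := F.mem_rts'.1 (F.rt_mem hq)

theorem rt_injOn {z : Fin 3 → ℂ} (hz : z ∈ F.V) : InjOn (fun i => F.rt (z, i)) (Finset.range d) := by
  intro i hi j hj hij
  have hi' : (z, i) ∈ F.S.M := F.mem_M.2 ⟨hz, Finset.mem_range.1 hi⟩
  have hj' : (z, j) ∈ F.S.M := F.mem_M.2 ⟨hz, Finset.mem_range.1 hj⟩
  have h1 : F.ecov.pt (z, i) = F.ecov.pt (z, j) := by
    apply Subtype.ext
    refine Prod.ext ?_ hij
    rw [F.pt_fst hi', F.pt_fst hj']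
  have h2 := congrArg F.ecov.q h1
  rw [F.ecov.q_pt (z := z) hz (F.mem_M.1 hi').2, F.ecov.q_pt (z := z) hz (F.mem_M.1 hj').2] at h2
  exact (Prod.ext_iff.1 h2).2

theorem exists_rt {z : Fin 3 → ℂ} (hz : z ∈ F.V) {w : ℂ} (hw : w ∈ F.rts z) :
    ∃ i < d, F.rt (z, i) = w := by
  have h1 := F.ecov.pt_q ⟨(z, w), hz, hw⟩
  refine ⟨F.ecov.lab ⟨(z, w), hz, hw⟩, F.ecov.lab_lt _, ?_⟩
  have h2 : F.ecov.q ⟨(z, w), hz, hw⟩ = (z, F.ecov.lab ⟨(z, w), hz, hw⟩) := rfl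
  rw [h2] at h1
  rw [rt, h1]

theorem image_rt {z : Fin 3 → ℂ} (hz : z ∈ F.V) :
    (Finset.range d).image (fun i => F.rt (z, i)) = F.rts z := by
  refine Finset.ext fun w => ?_
  rw [Finset.mem_image]
  constructor
  · rintro ⟨i, hi, hiw⟩
    have hm : (z, i) ∈ F.S.M := F.mem_M.2 ⟨hz, Finset.mem_range.1 hi⟩
    have h2 := F.rt_mem hm
    rw [hiw] at h2
    exact h2
  · intro hw
    obtain ⟨i, hi, h⟩ := F.exists_rt hz hw
    exact ⟨i, Finset.mem_range.2 hi, h⟩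

theorem sum_rt {z : Fin 3 → ℂ} (hz : z ∈ F.V) {G : Type*} [AddCommMonoid G] (f : ℂ → G) :
    ∑ i ∈ F.S.fib z, f (F.rt (z, i)) = ∑ w ∈ F.rts z, f w := by
  rw [← F.image_rt hz, Finset.sum_image (F.rt_injOn hz)]
  rfl

theorem cont_rt {W : Set (Fin 3 → ℂ)} {s : (Fin 3 → ℂ) → ℕ} (h : F.S.IsSection W s) :
    ContinuousOn (fun z => F.rt (z, s z)) W := by
  obtain ⟨h1, h2, h3⟩ := h
  exact (continuous_snd.comp continuous_subtype_val).comp_continuousOn h3.cont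

theorem exists_rt_eq {W : Set (Fin 3 → ℂ)} {s : (Fin 3 → ℂ) → ℕ} (h : F.S.IsSection W s)
    {z₀ : Fin 3 → ℂ} (hz₀ : z₀ ∈ W) : ∃ φ : (Fin 3 → ℂ) → ℂ, DifferentiableAt ℂ φ z₀ ∧
      (fun z => F.rt (z, s z)) =ᶠ[𝓝 z₀] φ := by
  have hm : ∀ z ∈ W, (z, s z) ∈ F.S.M := fun z hz => h.mem_M hz
  have hO : IsOpen W := h.isOpen
  obtain ⟨U, t, hU, hzU, hUV, hd, hinj, hfib⟩ := F.exists_roots (F.mem_M.1 (hm z₀ hz₀)).1
  have h1 := F.rt_mem (hm z₀ hz₀)
  rw [hfib z₀ hzU, Finset.mem_image] at h1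
  obtain ⟨i, -, hi⟩ := h1
  have h2 : ∀ j, j ≠ i → ∀ᶠ y in 𝓝 z₀, F.rt (y, s y) ≠ t j y := by
    intro j hj
    have hc1 : ContinuousAt (fun z => F.rt (z, s z)) z₀ :=
      (F.cont_rt h).continuousAt (hO.mem_nhds hz₀)
    have hc2 : ContinuousAt (t j) z₀ := (hd j).continuousOn.continuousAt (hU.mem_nhds hzU)
    have h3 : F.rt (z₀, s z₀) - t j z₀ ≠ 0 := by
      rw [← hi]
      exact sub_ne_zero.2 fun h => hj (hinj z₀ hzU h).symm
    filter_upwards [(hc1.sub hc2).eventually_ne h3] with y hy h4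
    exact hy (sub_eq_zero.2 h4)
  refine ⟨t i, (hd i).differentiableAt (hU.mem_nhds hzU), ?_⟩
  have h6 : ∀ᶠ y in 𝓝 z₀, ∀ j, j ≠ i → F.rt (y, s y) ≠ t j y := eventually_all.2 fun j => by
    by_cases hj : j = i
    · exact Filter.Eventually.of_forall fun y h => absurd hj h
    · filter_upwards [h2 j hj] with y hy _
      exact hy
  filter_upwards [h6, hO.mem_nhds hz₀, hU.mem_nhds hzU] with y hy hyW hyU
  have h7 := F.rt_mem (hm y hyW)
  rw [hfib y hyU, Finset.mem_image] at h7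
  obtain ⟨j, -, hj⟩ := h7
  by_cases hji : j = i
  · rw [← hj, hji]
  · exact absurd hj.symm (hy j hji)

/-- the root function is holomorphic along the sheets -/
theorem holo_rt : F.S.Holo F.rt := by
  intro W s h z hz
  obtain ⟨φ, hφ, he⟩ := F.exists_rt_eq h hz
  exact (hφ.congr_of_eventuallyEq he).differentiableWithinAt

/-- a function holomorphic on the product is holomorphic along the sheets -/
theorem holo_comp {X : (Fin 3 → ℂ) × ℂ → ℂ} (hX : DifferentiableOn ℂ X (F.V ×ˢ univ)) :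
    F.S.Holo (fun q => X (q.1, F.rt q)) := by
  intro W s h
  have h1 : DifferentiableOn ℂ (fun z => (z, F.rt (z, s z))) W :=
    differentiableOn_id.prodMk (F.holo_rt W s h)
  exact hX.comp h1 fun z hz => ⟨h.subset hz, mem_univ _⟩

end Fam

end Vale.Agent.P298.H755
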